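import Mathlib

/-!
Class-level combinatorics of the counterexample.
-/

namespace Vale.Agent.P037

/-- row classes -/
inductive RC : Type
  | Z (i : ℕ) : RC
  | W3 : RC
  | M (i u : ℕ) : RC
  | W2 : RC
  | W1 : RC
  | R (t d : ℕ) : RC

/-- column classes -/
inductive CC : Type
  | Z (j : ℕ) : CC
  | W : CC
  | M (j v : ℕ) : CC
  | C (t d : ℕ) : CC

/-- chain relation -/
def rho (h t u v : ℕ) : Bool :=
  if t ≤ h then decide (u / 2 ^ (h - t) ≤ v / 2 ^ (h - t))
  else decide (u / 2 ^ (t - h - 1) < v / 2 ^ (t - h - 1))

/-- relevant bit -/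
def gam (h t u : ℕ) : ℕ :=
  if t < h then (u / 2 ^ (h - t - 1)) % 2
  else if t = h then 0 else (u / 2 ^ (t - h - 1)) % 2

lemma gam_lt (h t u : ℕ) : gam h t u < 2 := by
  unfold gam; split_ifs <;> omega

lemma rho_step {h t u v : ℕ} (ht : t ≠ h) (hg : gam h t u = gam h t v) :
    rho h t u v = rho h (t + 1) u v := by
  unfold rho
  unfold gam at hg
  rcases lt_or_gt_of_ne ht with hlt | hgt
  · have e1 : h - t = (h - t - 1) + 1 := by omega
    have e2 : h - (t + 1) = h - t - 1 := by omega
    rw [if_pos hlt, if_pos hlt] at hg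
    rw [if_pos hlt.le, if_pos (by omega : t + 1 ≤ h), e2]
    have a1 : u / 2 ^ (h - t) = u / 2 ^ (h - t - 1) / 2 := by
      conv_lhs => rw [e1, pow_succ, ← Nat.div_div_eq_div_mul]
    have a2 : v / 2 ^ (h - t) = v / 2 ^ (h - t - 1) / 2 := by
      conv_lhs => rw [e1, pow_succ, ← Nat.div_div_eq_div_mul]
    rw [a1, a2]
    congr 1
    apply propext
    omega
  · have e2 : t + 1 - h - 1 = (t - h - 1) + 1 := by omega
    rw [if_neg (by omega : ¬ t < h), if_neg (by omega : ¬ t = h),
      if_neg (by omega : ¬ t < h), if_neg (by omega : ¬ t = h)] at hg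
    rw [if_neg (by omega : ¬ t ≤ h), if_neg (by omega : ¬ t + 1 ≤ h), e2]
    rw [pow_succ, ← Nat.div_div_eq_div_mul, ← Nat.div_div_eq_div_mul]
    congr 1
    apply propext
    omega

lemma rho_mono {h t u v u' v' : ℕ} (hu : u' ≤ u) (hv : v ≤ v')
    (hr : rho h t u v = true) : rho h t u' v' = true := by
  unfold rho at *
  split_ifs at * with hth
  · rw [decide_eq_true_eq] at *
    exact (Nat.div_le_div_right hu).trans (hr.trans (Nat.div_le_div_right hv))
  · rw [decide_eq_true_eq] at *
    exact lt_of_le_of_lt (Nat.div_le_div_right hu) (lt_of_lt_of_le hr (Nat.div_le_div_right hv))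

lemma rho_zero {h u v : ℕ} (hu : u < 2 ^ h) : rho h 0 u v = true := by
  unfold rho
  simp [Nat.div_eq_of_lt hu]

lemma rho_last {h u v : ℕ} (hv : v < 2 ^ h) : rho h (2 * h + 1) u v = false := by
  unfold rho
  have e : 2 * h + 1 - h - 1 = h := by omega
  rw [if_neg (by omega), e, Nat.div_eq_of_lt hv]
  simp

lemma rho_h {h u v : ℕ} : rho h h u v = decide (u ≤ v) := by
  unfold rho; simp

lemma rho_h1 {h u v : ℕ} : rho h (h + 1) u v = decide (u < v) := by
  unfold rho
  have e : h + 1 - h - 1 = 0 := by omega
  rw [if_neg (by omega), e]; simp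

/-- The class-level matrix. -/
def ent (h : ℕ) : RC → CC → Bool
  | .Z i, .Z j => decide (14 ≤ i + j + 1)
  | .Z _, .W => false
  | .Z _, .M _ _ => false
  | .Z _, .C _ _ => true
  | .W3, .Z _ => false
  | .W3, .W => true
  | .W3, .M _ _ => false
  | .W3, .C t _ => decide (t = 2 * h)
  | .M _ _, .Z _ => false
  | .M _ _, .W => true
  | .M i u, .M j v => decide (i = j ∨ i = j + 1) && rho h (i + j) u v
  | .M i u, .C t d => decide (2 * i ≤ t + 2 ∧ t ≤ 2 * i ∧ gam h t u = d)
  | .W2, .Z _ => false
  | .W2, .W => true
  | .W2, .M _ _ => true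
  | .W2, .C t _ => decide (t = 0)
  | .W1, .Z _ => false
  | .W1, .W => false
  | .W1, .M _ _ => true
  | .W1, .C _ _ => true
  | .R _ _, .Z _ => true
  | .R _ _, .W => true
  | .R t d, .M j v => decide (2 * j ≤ t + 1 ∧ t ≤ 2 * j + 1 ∧ gam h t v = d)
  | .R t d, .C t' d' => decide (t = t' ∧ d = d')

/-- coarse rank of row classes -/
def RC.rk : RC → ℕ
  | .Z _ => 0
  | .W3 => 1
  | .M _ _ => 2
  | .W2 => 3
  | .W1 => 4
  | .R _ _ => 5

/-- coarse rank of column classes -/
def CC.rk : CC → ℕ
  | .Z _ => 0
  | .W => 1
  | .M _ _ => 2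
  | .C _ _ => 3

/-- order relation on row classes satisfied by `r < r'`. -/
def RC.le : RC → RC → Prop
  | .Z i, .Z i' => i ≤ i'
  | .M _ u, .M _ u' => u ≤ u'
  | x, y => x.rk ≤ y.rk

def CC.le : CC → CC → Prop
  | .Z i, .Z i' => i ≤ i'
  | .M _ u, .M _ u' => u ≤ u'
  | x, y => x.rk ≤ y.rk

/-- validity of parameters -/
def RC.Valid (h : ℕ) : RC → Prop
  | .M i u => 1 ≤ i ∧ i ≤ h ∧ u < 2 ^ h
  | _ => True

def CC.Valid (h : ℕ) : CC → Prop
  | .M j v => j ≤ h ∧ v < 2 ^ h
  | _ => True

lemma RC.le_rk {x y : RC} (h : x.le y) : x.rk ≤ y.rk := by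
  cases x <;> cases y <;> simp_all [RC.le, RC.rk]

lemma CC.le_rk {x y : CC} (h : x.le y) : x.rk ≤ y.rk := by
  cases x <;> cases y <;> simp_all [CC.le, CC.rk]

/-- Two elements seen by the same certificate see the chain relation at `t` or `t+1`. -/
lemma rho_visible {h t i j u v : ℕ} (h1 : 2 * i ≤ t + 2) (h2 : t ≤ 2 * i)
    (h3 : 2 * j ≤ t + 1) (h4 : t ≤ 2 * j + 1) (ht : t ≠ h) (hg : gam h t u = gam h t v) :
    rho h (i + j) u v = rho h t u v := by
  have : i + j = t ∨ i + j = t + 1 := by omega
  rcases this with e | e
  · rw [e]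
  · rw [e, ← rho_step ht hg]

/-- The core lemma. -/
theorem core {h : ℕ} (hh : 1 ≤ h) {x1 x2 : RC} {y1 y2 : CC} {t d t' d' : ℕ}
    (vx1 : x1.Valid h) (vx2 : x2.Valid h) (vy1 : y1.Valid h) (vy2 : y2.Valid h)
    (px1 : 1 ≤ x1.rk) (px2 : x2.rk ≤ 4) (py1 : 1 ≤ y1.rk) (py2 : y2.rk ≤ 2)
    (hx : x1.le x2) (hy : y1.le y2)
    (e11 : ent h x1 y1 = true) (e12 : ent h x1 y2 = false)
    (e21 : ent h x2 y1 = true) (e22 : ent h x2 y2 = true)
    (e13 : ent h x1 (.C t' d') = true) (e23 : ent h x2 (.C t' d') = true)
    (e31 : ent h (.R t d) y1 = true) (e32 : ent h (.R t d) y2 = true)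
    (e33 : ent h (.R t d) (.C t' d') = true) :
    ∃ i u j, x1 = .M i u ∧ y2 = .M j u := by
  have htd : t = t' ∧ d = d' := by simpa [ent] using e33
  obtain ⟨rfl, rfl⟩ := htd
  have qy2 : 1 ≤ y2.rk := py1.trans (CC.le_rk hy)
  cases x1 with
  | Z i => simp [RC.rk] at px1
  | R t d => 
    have := RC.le_rk hx
    simp [RC.rk] at this px2
    omega
  | W1 =>
    cases y2 with
    | W =>
      have hy1 : y1 = .W := by
        cases y1 <;> simp_all [CC.le, CC.rk]
      subst hy1
      simp [ent] at e11
    | Z _ => simp [CC.rk] at qy2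
    | C _ _ => simp [CC.rk] at py2
    | M _ _ => simp [ent] at e12
  | W2 =>
    cases y2 with
    | Z _ => simp [CC.rk] at qy2
    | C _ _ => simp [CC.rk] at py2
    | M _ _ => simp [ent] at e12
    | W => simp [ent] at e12
  | W3 =>
    cases y2 with
    | Z _ => simp [CC.rk] at qy2
    | C _ _ => simp [CC.rk] at py2
    | W => simp [ent] at e12
    | M j v =>
      have ht : t = 2 * h := by simpa [ent] using e13
      subst ht
      have hy1 : y1 = .W := by
        cases y1 <;> simp_all [CC.le, CC.rk, ent]
      subst hy1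
      simp only [ent, decide_eq_true_eq] at e32
      cases x2 with
      | M i u =>
        simp only [ent, Bool.and_eq_true, decide_eq_true_eq] at e22 e23
        simp only [RC.Valid] at vx2
        simp only [CC.Valid] at vy2
        obtain ⟨_, e22⟩ := e22
        have hg : gam h (2 * h) u = gam h (2 * h) v := by rw [e23.2.2, e32.2.2]
        have hij : i + j = 2 * h := by omega
        rw [hij, rho_step (by omega) hg, rho_last vy2.2] at e22
        exact absurd e22 (by simp)
      | W2 => simp [ent] at e23; omega
      | Z _ => simp [ent] at e21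
      | W3 => simp [ent] at e22
      | W1 => simp [ent] at e21
      | R _ _ => simp [RC.rk] at px2
  | M i' u' =>
    cases y2 with
    | Z j => simp [CC.rk] at qy2
    | W => simp [ent] at e12
    | C _ _ => simp [CC.rk] at py2
    | M j v =>
      simp only [ent, decide_eq_true_eq] at e13 e32
      have hij : decide (i' = j ∨ i' = j + 1) = true := by
        rw [decide_eq_true_eq]; omega
      simp only [ent, hij, Bool.true_and] at e12
      simp only [RC.Valid] at vx1
      simp only [CC.Valid] at vy2
      refine ⟨i', u', j, rfl, ?_⟩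
      congr 1
      cases x2 with
      | Z _ => simp [RC.le, RC.rk] at hx
      | W3 => simp [RC.le, RC.rk] at hx
      | R _ _ => simp [RC.rk] at px2
      | W2 =>
        exfalso
        have ht : t = 0 := by simpa [ent] using e23
        subst ht
        have hi : i' = 1 := by omega
        have hj : j = 0 := by omega
        subst hi; subst hj
        have := rho_zero (v := v) vx1.2.2
        rw [rho_step (by omega) (by rw [e13.2.2, e32.2.2])] at this
        simp at e12 this
        rw [this] at e12; exact absurd e12 (by simp)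
      | M i u =>
        simp only [ent, Bool.and_eq_true, decide_eq_true_eq] at e22 e23
        have hu : u' ≤ u := hx
        by_cases ht : t = h
        · subst ht
          have c1 : i + j = t ∨ i + j = t + 1 := by omega
          have c2 : i' + j = t ∨ i' + j = t + 1 := by omega
          have d1 : u ≤ v := by
            rcases c1 with c | c
            · have := e22.2; rw [c, rho_h] at this; simpa using this
            · have := e22.2; rw [c, rho_h1] at this; exact le_of_lt (by simpa using this)
          have d2 : v ≤ u' := by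
            rcases c2 with c | c
            · rw [c, rho_h] at e12; exact le_of_lt (by simpa using e12)
            · rw [c, rho_h1] at e12; simpa using e12
          omega
        · exfalso
          have g1 : rho h t u v = true := by
            rw [← rho_visible (i := i) (j := j) e23.1 e23.2.1 e32.1 e32.2.1 ht
              (by rw [e23.2.2, e32.2.2])]
            exact e22.2
          have g2 : rho h t u' v = false := by
            rw [← rho_visible (i := i') (j := j) e13.1 e13.2.1 e32.1 e32.2.1 ht
              (by rw [e13.2.2, e32.2.2])]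
            exact e12
          rw [rho_mono hu le_rfl g1] at g2
          exact absurd g2 (by simp)
      | W1 =>
        cases y1 with
        | Z _ => simp [CC.rk] at py1
        | W => simp [ent] at e21
        | C _ _ => simp [CC.le, CC.rk] at hy
        | M j1 v1 =>
          have hv : v1 ≤ v := hy
          simp only [ent, Bool.and_eq_true, decide_eq_true_eq] at e11 e31
          by_cases ht : t = h
          · subst ht
            have c1 : i' + j1 = t ∨ i' + j1 = t + 1 := by omega
            have c2 : i' + j = t ∨ i' + j = t + 1 := by omega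
            have d1 : u' ≤ v1 := by
              rcases c1 with c | c
              · have := e11.2; rw [c, rho_h] at this; simpa using this
              · have := e11.2; rw [c, rho_h1] at this; exact le_of_lt (by simpa using this)
            have d2 : v ≤ u' := by
              rcases c2 with c | c
              · rw [c, rho_h] at e12; exact le_of_lt (by simpa using e12)
              · rw [c, rho_h1] at e12; simpa using e12
            omega
          · exfalso
            have g1 : rho h t u' v1 = true := by
              rw [← rho_visible (i := i') (j := j1) e13.1 e13.2.1 e31.1 e31.2.1 ht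
                (by rw [e13.2.2, e31.2.2])]
              exact e11.2
            have g2 : rho h t u' v = false := by
              rw [← rho_visible (i := i') (j := j) e13.1 e13.2.1 e32.1 e32.2.1 ht
                (by rw [e13.2.2, e32.2.2])]
              exact e12
            rw [rho_mono le_rfl hv g1] at g2
            exact absurd g2 (by simp)

end Vale.Agent.P037
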