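import Mathlib

/-!
Definitions for the ordered binary matrix removal problem.
Binary matrices are functions `Fin n → Fin n → Bool`; rows and columns carry the natural order.
-/

namespace Vale.Agent.P037

open Classical in
/-- The set of ordered copies of the binary `k × k` matrix `H` in the binary `n × n` matrix `A`:
pairs `(r, c)` of strictly increasing index sequences with `A (r i) (c j) = H i j`
for all `i, j`. Zeros and ones must both match. -/
noncomputable def orderedCopies {k n : ℕ} (H : Fin k → Fin k → Bool)
    (A : Fin n → Fin n → Bool) : Finset ((Fin k → Fin n) × (Fin k → Fin n)) :=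
  Finset.univ.filter fun p =>
    StrictMono p.1 ∧ StrictMono p.2 ∧ ∀ i j, A (p.1 i) (p.2 j) = H i j

/-- `N_H(A)`, the number of ordered copies of `H` in `A`. -/
noncomputable def numCopies {k n : ℕ} (H : Fin k → Fin k → Bool)
    (A : Fin n → Fin n → Bool) : ℕ := (orderedCopies H A).card

/-- `A` is `H`-free. -/
def IsFree {k n : ℕ} (H : Fin k → Fin k → Bool) (A : Fin n → Fin n → Bool) : Prop :=
  numCopies H A = 0

/-- The number of entries in which two binary matrices differ. -/
def numDiff {n : ℕ} (A B : Fin n → Fin n → Bool) : ℕ :=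
  (Finset.univ.filter fun p : Fin n × Fin n => A p.1 p.2 ≠ B p.1 p.2).card

/-- `dist_H(A)`: the least normalized number of entry changes turning `A` into an `H`-free
matrix, i.e. the least value of `numDiff A B / n ^ 2` over all `H`-free `B`. -/
noncomputable def distFree {k n : ℕ} (H : Fin k → Fin k → Bool)
    (A : Fin n → Fin n → Bool) : ℝ :=
  sInf {x : ℝ | ∃ B : Fin n → Fin n → Bool, IsFree H B ∧ x = (numDiff A B : ℝ) / (n : ℝ) ^ 2}

/-- The polynomial removal property of a single pattern `H`: there are constants `c, C > 0`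
such that every `n × n` binary matrix `A` with `dist_H(A) ≥ ε` contains at least
`c * ε ^ C * n ^ (2 * k)` ordered copies of `H`. -/
def HasPolynomialRemoval {k : ℕ} (H : Fin k → Fin k → Bool) : Prop :=
  ∃ c C : ℝ, 0 < c ∧ 0 < C ∧ ∀ n : ℕ, 1 ≤ n → ∀ ε : ℝ, 0 < ε → ε < 1 →
    ∀ A : Fin n → Fin n → Bool, ε ≤ distFree H A →
      c * ε ^ C * (n : ℝ) ^ (2 * k) ≤ (numCopies H A : ℝ)

end Vale.Agent.P037
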