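import Vale.Agent.P037.Mat

/-!
Every pattern-free matrix differs from `amat` in at least `N ^ 2` entries.
-/

namespace Vale.Agent.P037

/-- extension of a finite matrix to all naturals -/
def ext {n : ℕ} (B : Fin n → Fin n → Bool) (r c : ℕ) : Bool :=
  if h : r < n ∧ c < n then B ⟨r, h.1⟩ ⟨c, h.2⟩ else false

lemma ext_eq {n : ℕ} (B : Fin n → Fin n → Bool) {r c : ℕ} (hr : r < n) (hc : c < n) :
    ext B r c = B ⟨r, hr⟩ ⟨c, hc⟩ := by
  unfold ext; rw [dif_pos ⟨hr, hc⟩]

/-- index sequence -/
def seq (N s r1 r2 r3 : ℕ) (i : Fin 17) : ℕ :=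
  if i.val < 14 then i.val * N + s else if i.val = 14 then r1 else if i.val = 15 then r2 else r3

lemma seq_lt {N s r1 r2 r3 : ℕ} (hs : s < N) (h1 : 14 * N ≤ r1) (h2 : r1 < r2) (h3 : r2 < r3)
    {i j : Fin 17} (hij : i < j) : seq N s r1 r2 r3 i < seq N s r1 r2 r3 j := by
  have hij' : i.val < j.val := hij
  have hj := j.isLt
  unfold seq
  by_cases hj14 : j.val < 14
  · rw [if_pos (by omega), if_pos hj14]
    have := lt_mul_of_lt hs hij'
    omega
  · by_cases hi14 : i.val < 14
    · have := lt_mul_of_lt hs hi14
      rw [if_pos hi14, if_neg hj14]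
      split_ifs <;> omega
    · rw [if_neg hi14, if_neg hj14]
      split_ifs <;> omega

lemma seq_le {N s r1 r2 r3 : ℕ} (hs : s < N) (h1 : 14 * N ≤ r1) (h2 : r1 < r2) (h3 : r2 < r3)
    (i : Fin 17) : seq N s r1 r2 r3 i ≤ r3 := by
  unfold seq
  split_ifs with h
  · have := lt_mul_of_lt hs h
    omega
  · omega
  · omega
  · omega

/-- the agreement hypothesis -/
def Agree (h m N n U s s' : ℕ) (B : Fin n → Fin n → Bool) : Prop :=
  ∀ r c : ℕ, r < n → c < n → InRow h N U s r → InCol h N U s' c →
    ¬ (mainR h N r ∧ mainC h N c) → ext B r c = ent h (rcls h m N r) (ccls h m N c)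

lemma build {h m N n U s s' : ℕ} (hn : 19 * N + 5 * (h * N) ≤ n) (B : Fin n → Fin n → Bool)
    (hs : s < N) (hs' : s' < N) (agree : Agree h m N n U s s' B)
    {t d : ℕ} (ht : t ≤ 2 * h) (hd : d < 2) {r1 r2 c1 c2 : ℕ}
    (hr1 : 14 * N ≤ r1) (hr12 : r1 < r2) (hr2 : r2 < 17 * N + h * N)
    (hc1 : 14 * N ≤ c1) (hc12 : c1 < c2) (hc2 : c2 < 16 * N + h * N)
    (ir1 : InRow h N U s r1) (ir2 : InRow h N U s r2)
    (ic1 : InCol h N U s' c1) (ic2 : InCol h N U s' c2)
    (a1 : ent h (rcls h m N r1) (.C t d) = true) (a2 : ent h (rcls h m N r2) (.C t d) = true)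
    (b1 : ent h (.R t d) (ccls h m N c1) = true) (b2 : ent h (.R t d) (ccls h m N c2) = true)
    (k11 : ext B r1 c1 = true) (k12 : ext B r1 c2 = false)
    (k21 : ext B r2 c1 = true) (k22 : ext B r2 c2 = true) : ¬ IsFree pattern B := by
  classical
  have hg : (2 * t + d) * N + s < (4 * h + 2) * N := lt_mul_of_lt hs (by omega)
  have hg' : (2 * t + d) * N + s' < (4 * h + 2) * N := lt_mul_of_lt hs' (by omega)
  have hg2 : (4 * h + 2) * N = 4 * (h * N) + 2 * N := by ring
  rw [hg2] at hg hg'
  set r3 := 17 * N + h * N + ((2 * t + d) * N + s) with hr3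
  set c3 := 16 * N + h * N + ((2 * t + d) * N + s') with hc3
  have r3n : r3 < n := by omega
  have c3n : c3 < n := by omega
  have r23 : r2 < r3 := by omega
  have c23 : c2 < c3 := by omega
  -- classes
  have R3 : rcls h m N r3 = .R t d := rcls_R hd hs
  have C3 : ccls h m N c3 = .C t d := ccls_C hd hs'
  have IR3 : InRow h N U s r3 := by
    have : r3 = (17 + h + (2 * t + d)) * N + s := by rw [hr3]; ring
    rw [this]; exact inRow_hi (by omega) hs
  have IC3 : InCol h N U s' c3 := by
    have : c3 = (16 + h + (2 * t + d)) * N + s' := by rw [hc3]; ring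
    rw [this]; exact inCol_hi (by omega) hs'
  have nR3 : ¬ mainR h N r3 := fun hm => absurd hm.2 (by omega)
  have nC3 : ¬ mainC h N c3 := fun hm => absurd hm.2 (by omega)
  -- ranks
  have rk_r : ∀ r, 14 * N ≤ r → r < 17 * N + h * N → ∀ j, ent h (rcls h m N r) (.Z j) = false := by
    intro r h1 h2 j
    unfold rcls
    generalize h * N = K at *
    split_ifs <;> first | omega | rfl
  have rk_c : ∀ c, 14 * N ≤ c → c < 16 * N + h * N → ∀ j, ent h (.Z j) (ccls h m N c) = false := by
    intro c h1 h2 j
    unfold ccls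
    generalize h * N = K at *
    split_ifs <;> first | omega | rfl
  have nZr : ∀ i : ℕ, i < 14 → ¬ mainR h N (i * N + s) := by
    intro i hi hm
    have := lt_mul_of_lt hs hi
    exact absurd hm.1 (by omega)
  have nZc : ∀ i : ℕ, i < 14 → ¬ mainC h N (i * N + s') := by
    intro i hi hm
    have := lt_mul_of_lt hs' hi
    exact absurd hm.1 (by omega)
  have ltZr : ∀ i : ℕ, i < 14 → i * N + s < n := by
    intro i hi
    have := lt_mul_of_lt hs hi
    omega
  have ltZc : ∀ i : ℕ, i < 14 → i * N + s' < n := by
    intro i hi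
    have := lt_mul_of_lt hs' hi
    omega
  -- entries
  have main : ∀ i j : Fin 17, ext B (seq N s r1 r2 r3 i) (seq N s' c1 c2 c3 j) = pattern i j := by
    intro i j
    have hi := i.isLt
    have hj := j.isLt
    by_cases hi14 : i.val < 14
    · have ei : seq N s r1 r2 r3 i = i.val * N + s := by unfold seq; rw [if_pos hi14]
      rw [ei]
      have IR := inRow_lo (h := h) (U := U) (a := i.val) (by omega) hs
      have RZ := rcls_Z (h := h) (m := m) hi14 hs
      by_cases hj14 : j.val < 14
      · have ej : seq N s' c1 c2 c3 j = j.val * N + s' := by unfold seq; rw [if_pos hj14]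
        rw [ej, agree _ _ (ltZr _ hi14) (ltZc _ hj14) IR (inCol_lo (by omega) hs')
          (fun hh => nZr _ hi14 hh.1), RZ, ccls_Z hj14 hs']
        simp only [ent, pattern]
        rw [if_pos ⟨hi14, hj14⟩]
        congr 1
        apply propext
        omega
      · have hp : pattern i j = decide (j.val = 16) := by
          unfold pattern; rw [if_neg (fun hh => hj14 hh.2), if_pos hi14]
        rw [hp]
        have hj3 : j.val = 14 ∨ j.val = 15 ∨ j.val = 16 := by omega
        rcases hj3 with e | e | e
        · have ej : seq N s' c1 c2 c3 j = c1 := by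
            unfold seq; rw [if_neg hj14, if_pos e]
          rw [ej, agree _ _ (ltZr _ hi14) (by omega) IR ic1 (fun hh => nZr _ hi14 hh.1), RZ,
            rk_c c1 hc1 (by omega), e]
          rfl
        · have ej : seq N s' c1 c2 c3 j = c2 := by
            unfold seq; rw [if_neg hj14, if_neg (by omega), if_pos e]
          rw [ej, agree _ _ (ltZr _ hi14) (by omega) IR ic2 (fun hh => nZr _ hi14 hh.1), RZ,
            rk_c c2 (by omega) hc2, e]
          rfl
        · have ej : seq N s' c1 c2 c3 j = c3 := by
            unfold seq; rw [if_neg hj14, if_neg (by omega), if_neg (by omega)]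
          rw [ej, agree _ _ (ltZr _ hi14) c3n IR IC3 (fun hh => nZr _ hi14 hh.1), RZ, C3, e]
          rfl
    · by_cases hj14 : j.val < 14
      · have ej : seq N s' c1 c2 c3 j = j.val * N + s' := by unfold seq; rw [if_pos hj14]
        rw [ej]
        have IC := inCol_lo (h := h) (U := U) (a := j.val) (by omega) hs'
        have CZ := ccls_Z (h := h) (m := m) hj14 hs'
        have hp : pattern i j = decide (i.val = 16) := by
          unfold pattern; rw [if_neg (fun hh => hi14 hh.1), if_neg hi14, if_pos hj14]
        rw [hp]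
        have hi3 : i.val = 14 ∨ i.val = 15 ∨ i.val = 16 := by omega
        rcases hi3 with e | e | e
        · have ei : seq N s r1 r2 r3 i = r1 := by
            unfold seq; rw [if_neg hi14, if_pos e]
          rw [ei, agree _ _ (by omega) (ltZc _ hj14) ir1 IC (fun hh => nZc _ hj14 hh.2), CZ,
            rk_r r1 hr1 (by omega), e]
          rfl
        · have ei : seq N s r1 r2 r3 i = r2 := by
            unfold seq; rw [if_neg hi14, if_neg (by omega), if_pos e]
          rw [ei, agree _ _ (by omega) (ltZc _ hj14) ir2 IC (fun hh => nZc _ hj14 hh.2), CZ,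
            rk_r r2 (by omega) hr2, e]
          rfl
        · have ei : seq N s r1 r2 r3 i = r3 := by
            unfold seq; rw [if_neg hi14, if_neg (by omega), if_neg (by omega)]
          rw [ei, agree _ _ r3n (ltZc _ hj14) IR3 IC (fun hh => nZc _ hj14 hh.2), CZ, R3, e]
          rfl
      · have hp : pattern i j = !(decide (i.val = 14 ∧ j.val = 15)) := by
          unfold pattern
          rw [if_neg (fun hh => hi14 hh.1), if_neg hi14, if_neg hj14]
        rw [hp]
        have hi3 : i.val = 14 ∨ i.val = 15 ∨ i.val = 16 := by omega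
        have hj3 : j.val = 14 ∨ j.val = 15 ∨ j.val = 16 := by omega
        have E13 : ext B r1 c3 = true := by
          rw [agree _ _ (by omega) c3n ir1 IC3 (fun hh => nC3 hh.2), C3, a1]
        have E23 : ext B r2 c3 = true := by
          rw [agree _ _ (by omega) c3n ir2 IC3 (fun hh => nC3 hh.2), C3, a2]
        have E31 : ext B r3 c1 = true := by
          rw [agree _ _ r3n (by omega) IR3 ic1 (fun hh => nR3 hh.1), R3, b1]
        have E32 : ext B r3 c2 = true := by
          rw [agree _ _ r3n (by omega) IR3 ic2 (fun hh => nR3 hh.1), R3, b2]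
        have E33 : ext B r3 c3 = true := by
          rw [agree _ _ r3n c3n IR3 IC3 (fun hh => nR3 hh.1), R3, C3]
          simp [ent]
        have sr1 : ∀ i : Fin 17, i.val = 14 → seq N s r1 r2 r3 i = r1 := by
          intro i e; unfold seq; rw [if_neg (by omega), if_pos e]
        have sr2 : ∀ i : Fin 17, i.val = 15 → seq N s r1 r2 r3 i = r2 := by
          intro i e; unfold seq; rw [if_neg (by omega), if_neg (by omega), if_pos e]
        have sr3 : ∀ i : Fin 17, i.val = 16 → seq N s r1 r2 r3 i = r3 := by
          intro i e; unfold seq; rw [if_neg (by omega), if_neg (by omega), if_neg (by omega)]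
        have sc1 : ∀ i : Fin 17, i.val = 14 → seq N s' c1 c2 c3 i = c1 := by
          intro i e; unfold seq; rw [if_neg (by omega), if_pos e]
        have sc2 : ∀ i : Fin 17, i.val = 15 → seq N s' c1 c2 c3 i = c2 := by
          intro i e; unfold seq; rw [if_neg (by omega), if_neg (by omega), if_pos e]
        have sc3 : ∀ i : Fin 17, i.val = 16 → seq N s' c1 c2 c3 i = c3 := by
          intro i e; unfold seq; rw [if_neg (by omega), if_neg (by omega), if_neg (by omega)]
        rcases hi3 with e | e | e <;> rcases hj3 with e' | e' | e'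
        · rw [sr1 i e, sc1 j e', k11]; simp [e, e']
        · rw [sr1 i e, sc2 j e', k12]; simp [e, e']
        · rw [sr1 i e, sc3 j e', E13]; simp [e, e']
        · rw [sr2 i e, sc1 j e', k21]; simp [e, e']
        · rw [sr2 i e, sc2 j e', k22]; simp [e, e']
        · rw [sr2 i e, sc3 j e', E23]; simp [e, e']
        · rw [sr3 i e, sc1 j e', E31]; simp [e, e']
        · rw [sr3 i e, sc2 j e', E32]; simp [e, e']
        · rw [sr3 i e, sc3 j e', E33]; simp [e, e']
  have hlr : ∀ i : Fin 17, seq N s r1 r2 r3 i < n := fun i =>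
    (seq_le hs hr1 hr12 r23 i).trans_lt r3n
  have hlc : ∀ i : Fin 17, seq N s' c1 c2 c3 i < n := fun i =>
    (seq_le hs' hc1 hc12 c23 i).trans_lt c3n
  unfold IsFree numCopies
  rw [Finset.card_eq_zero, ← ne_eq, ← Finset.nonempty_iff_ne_empty]
  refine ⟨(fun i => ⟨seq N s r1 r2 r3 i, hlr i⟩, fun j => ⟨seq N s' c1 c2 c3 j, hlc j⟩), ?_⟩
  simp only [orderedCopies, Finset.mem_filter, Finset.mem_univ, true_and]
  refine ⟨?_, ?_, ?_⟩
  · intro i j hij
    exact seq_lt hs hr1 hr12 r23 hij
  · intro i j hij
    exact seq_lt hs' hc1 hc12 c23 hij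
  · intro i j
    rw [← ext_eq B (hlr i) (hlc j)]
    exact main i j

lemma exists_step (f : ℕ → Bool) (k : ℕ) (h0 : f 0 = true) (hk : f k = false) :
    ∃ t, t < k ∧ f t = true ∧ f (t + 1) = false := by
  induction k with
  | zero => rw [h0] at hk; exact absurd hk (by simp)
  | succ k ih =>
    by_cases hfk : f k = true
    · exact ⟨k, by omega, hfk, hk⟩
    · obtain ⟨t, ht, h1, h2⟩ := ih (by simpa using hfk)
      exact ⟨t, by omega, h1, h2⟩

/-- the descending chain of rows through the cell `U` -/
def rowAt (h N U s i : ℕ) : ℕ :=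
  if i = 0 then 15 * N + h * N + s else if i ≤ h then 15 * N + (U * h + (h - i)) else 14 * N + s

/-- the ascending chain of columns through the cell `U` -/
def colAt (h N U j : ℕ) : ℕ := 15 * N + (U * (h + 1) + j)

theorem exists_copy {h m N n U s s' : ℕ} (hh : 1 ≤ h)
    (hn : 19 * N + 5 * (h * N) ≤ n) (B : Fin n → Fin n → Bool)
    (hU : U < N) (hs : s < N) (hs' : s' < N) (agree : Agree h m N n U s s' B) :
    ¬ IsFree pattern B := by
  -- facts on the chain of rows
  have rlt : ∀ i, i ≤ h + 1 → 14 * N ≤ rowAt h N U s i ∧ rowAt h N U s i < 16 * N + h * N := by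
    intro i hi
    unfold rowAt
    split_ifs with h1 h2
    · omega
    · have := main_lt (h := h) (i := i) (by omega) h2 hU
      omega
    · omega
  have rdec : ∀ i, i ≤ h → rowAt h N U s (i + 1) < rowAt h N U s i := by
    intro i hi
    unfold rowAt
    rw [if_neg (by omega : ¬ i + 1 = 0)]
    by_cases h0 : i = 0
    · rw [if_pos h0, if_pos (by omega)]
      have := main_lt (h := h) (i := i + 1) (by omega) (by omega) hU
      omega
    · rw [if_neg h0, if_pos hi]
      split_ifs with h2
      · omega
      · omega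
  have rin : ∀ i, i ≤ h + 1 → InRow h N U s (rowAt h N U s i) := by
    intro i hi
    unfold rowAt
    split_ifs with h1 h2
    · have : 15 * N + h * N + s = (15 + h) * N + s := by ring
      rw [this]; exact inRow_hi (by omega) hs
    · exact inRow_M (by omega) h2 hU
    · exact inRow_lo (by omega) hs
  have clt : ∀ j, j ≤ h → 15 * N ≤ colAt h N U j ∧ colAt h N U j < 16 * N + h * N := by
    intro j hj
    have := mainc_lt (h := h) hj hU
    unfold colAt
    omega
  have cin : ∀ j, j ≤ h → InCol h N U s' (colAt h N U j) := fun j hj => inCol_M hj hU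
  have ccl : ∀ j, j ≤ h → ccls h m N (colAt h N U j) = .M j (U / m) := fun j hj => ccls_M hj hU
  -- classes of the rows
  have rc0 : rcls h m N (rowAt h N U s 0) = .W2 := by
    unfold rowAt; rw [if_pos rfl]; exact rcls_W2 hs
  have rcM : ∀ i, 1 ≤ i → i ≤ h → rcls h m N (rowAt h N U s i) = .M i (U / m) := by
    intro i h1 h2
    unfold rowAt; rw [if_neg (by omega), if_pos h2]; exact rcls_M h1 h2 hU
  have rcE : rcls h m N (rowAt h N U s (h + 1)) = .W3 := by
    unfold rowAt; rw [if_neg (by omega), if_neg (by omega)]; exact rcls_W3 hs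
  -- visibility of rows for certificates
  have visR : ∀ i t, i ≤ h + 1 → 2 * i ≤ t + 2 → t ≤ 2 * i → t ≤ 2 * h →
      ent h (rcls h m N (rowAt h N U s i)) (.C t (gam h t (U / m))) = true := by
    intro i t h1 h2 h3 h4
    by_cases h0 : i = 0
    · subst h0
      rw [rc0]; simp only [ent, decide_eq_true_eq]; omega
    · by_cases hi : i ≤ h
      · rw [rcM i (by omega) hi]; simp only [ent, decide_eq_true_eq]; exact ⟨h2, h3, trivial⟩
      · have : i = h + 1 := by omega
        subst this
        rw [rcE]; simp only [ent, decide_eq_true_eq]; omega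
  have visC : ∀ j t, j ≤ h → 2 * j ≤ t + 1 → t ≤ 2 * j + 1 →
      ent h (.R t (gam h t (U / m))) (ccls h m N (colAt h N U j)) = true := by
    intro j t h1 h2 h3
    rw [ccl j h1]; simp only [ent, decide_eq_true_eq]; exact ⟨h2, h3, trivial⟩
  -- helper rows and columns
  have W1in : InRow h N U s (16 * N + h * N + s) := by
    have : 16 * N + h * N + s = (16 + h) * N + s := by ring
    rw [this]; exact inRow_hi (by omega) hs
  have Win : InCol h N U s' (14 * N + s') := inCol_lo (by omega) hs'
  have nW1 : ¬ mainR h N (16 * N + h * N + s) := fun hm => absurd hm.2 (by omega)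
  have nW : ¬ mainC h N (14 * N + s') := fun hm => absurd hm.1 (by omega)
  have rW : ∀ i, i ≤ h + 1 → ext B (rowAt h N U s i) (14 * N + s') = true := by
    intro i hi
    have := rlt i hi
    rw [agree _ _ (by omega) (by omega) (rin i hi) Win (fun hh => nW hh.2), ccls_W hs']
    by_cases h0 : i = 0
    · subst h0; rw [rc0]; rfl
    · by_cases hi' : i ≤ h
      · rw [rcM i (by omega) hi']; rfl
      · have : i = h + 1 := by omega
        subst this; rw [rcE]; rfl
  have Wc : ∀ j, j ≤ h → ext B (16 * N + h * N + s) (colAt h N U j) = true := by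
    intro j hj
    have := clt j hj
    rw [agree _ _ (by omega) (by omega) W1in (cin j hj) (fun hh => nW1 hh.1), rcls_W1 hs, ccl j hj]
    rfl
  -- the chain
  have f0 : ext B (rowAt h N U s ((0 + 1) / 2)) (colAt h N U (0 / 2)) = true := by
    have e1 : (0 + 1) / 2 = 0 := by norm_num
    rw [e1]
    have h1 := rlt 0 (by omega)
    have h2 := clt 0 (by omega)
    rw [agree _ _ (by omega) (by omega) (rin 0 (by omega)) (cin 0 (by omega)) ?_, rc0,
      ccl 0 (by omega)]
    · rfl
    · intro hh
      have := hh.1.2
      unfold rowAt at this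
      rw [if_pos rfl] at this
      omega
  have fE : ext B (rowAt h N U s ((2 * h + 1 + 1) / 2)) (colAt h N U ((2 * h + 1) / 2))
      = false := by
    have e1 : (2 * h + 1 + 1) / 2 = h + 1 := by omega
    have e2 : (2 * h + 1) / 2 = h := by omega
    rw [e1, e2]
    have h1 := rlt (h + 1) (by omega)
    have h2 := clt h (by omega)
    rw [agree _ _ (by omega) (by omega) (rin (h + 1) (by omega)) (cin h (by omega)) ?_, rcE,
      ccl h (by omega)]
    · rfl
    · intro hh
      have := hh.1.1
      unfold rowAt at this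
      rw [if_neg (by omega), if_neg (by omega)] at this
      omega
  obtain ⟨t, ht, ft, ft1⟩ := exists_step
    (fun t => ext B (rowAt h N U s ((t + 1) / 2)) (colAt h N U (t / 2))) (2 * h + 1) f0 fE
  have hd := gam_lt h t (U / m)
  rcases Nat.even_or_odd' t with ⟨i, rfl | rfl⟩
  · -- vertical step
    have e1 : (2 * i + 1) / 2 = i := by omega
    have e2 : 2 * i / 2 = i := by omega
    have e3 : (2 * i + 1 + 1) / 2 = i + 1 := by omega
    rw [e1, e2] at ft
    rw [e3, e1] at ft1
    have b1 := rlt i (by omega)
    have b2 := rlt (i + 1) (by omega)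
    have b3 := clt i (by omega)
    exact build hn B hs hs' agree (t := 2 * i) (by omega) hd b2.1 (rdec i (by omega))
      (by omega) (c1 := 14 * N + s') (by omega) (by omega) b3.2 (rin _ (by omega))
      (rin _ (by omega)) Win (cin i (by omega))
      (visR _ _ (by omega) (by omega) (by omega) (by omega))
      (visR _ _ (by omega) (by omega) (by omega) (by omega))
      (by rw [ccls_W hs']; rfl) (visC _ _ (by omega) (by omega) (by omega))
      (rW _ (by omega)) ft1 (rW _ (by omega)) ft
  · -- horizontal step
    have e1 : (2 * i + 1 + 1) / 2 = i + 1 := by omega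
    have e2 : (2 * i + 1) / 2 = i := by omega
    have e3 : (2 * i + 1 + 1 + 1) / 2 = i + 1 := by omega
    rw [e1, e2] at ft
    rw [e3, e1] at ft1
    have b2 := rlt (i + 1) (by omega)
    have b3 := clt i (by omega)
    have b4 := clt (i + 1) (by omega)
    exact build hn B hs hs' agree (t := 2 * i + 1) (by omega) hd b2.1
      (r2 := 16 * N + h * N + s) (by omega)
      (by omega) (c1 := colAt h N U i) (c2 := colAt h N U (i + 1)) (by omega)
      (by unfold colAt; omega) b4.2 (rin _ (by omega))
      W1in (cin i (by omega)) (cin (i + 1) (by omega))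
      (visR _ _ (by omega) (by omega) (by omega) (by omega))
      (by rw [rcls_W1 hs]; rfl)
      (visC _ _ (by omega) (by omega) (by omega))
      (visC _ _ (by omega) (by omega) (by omega))
      ft ft1 (Wc i (by omega)) (Wc (i + 1) (by omega))

/-- Every pattern-free matrix is far from `amat`. -/
theorem numDiff_ge {h m N n : ℕ} (hh : 1 ≤ h) (hn : 19 * N + 5 * (h * N) ≤ n)
    (B : Fin n → Fin n → Bool) (hB : IsFree pattern B) :
    N ^ 2 ≤ numDiff (amat h m N n) B := by
  classical
  rcases Nat.eq_zero_or_pos N with hN0 | hN0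
  · rw [hN0]; simp
  -- choose a changed entry for each triple
  have hex : ∀ q : Fin N × Fin N × Fin N, ∃ p : Fin n × Fin n,
      InRow h N q.1 q.2.1 p.1 ∧ InCol h N q.1 q.2.2 p.2 ∧ ¬ (mainR h N p.1 ∧ mainC h N p.2) ∧
        amat h m N n p.1 p.2 ≠ B p.1 p.2 := by
    intro q
    by_contra hcon
    push Not at hcon
    refine exists_copy (m := m) (U := q.1) (s := q.2.1) (s' := q.2.2) hh hn B q.1.isLt q.2.1.isLt
      q.2.2.isLt ?_ hB
    intro r c hr hc ir ic hmain
    rw [ext_eq B hr hc]
    have := hcon (⟨r, hr⟩, ⟨c, hc⟩) ir ic (fun h1 h2 => hmain ⟨h1, h2⟩)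
    exact this.symm
  choose p hp1 hp2 hp3 hp4 using hex
  set D : Finset (Fin n × Fin n) :=
    Finset.univ.filter fun p => amat h m N n p.1 p.2 ≠ B p.1 p.2 with hD
  have hcard : (Finset.univ : Finset (Fin N × Fin N × Fin N)).card ≤
      (D ×ˢ (Finset.univ : Finset (Fin N))).card := by
    refine Finset.card_le_card_of_injOn (fun q => (p q,
      if mainR h N (p q).1 then q.2.1 else if mainC h N (p q).2 then q.2.2 else q.1)) ?_ ?_
    · intro q _
      simp only [Finset.coe_product, Finset.coe_univ, Set.mem_prod, Set.mem_univ, and_true,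
        Finset.mem_coe, hD, Finset.mem_filter, Finset.mem_univ, true_and]
      exact hp4 q
    · intro q _ q' _ he
      simp only [Prod.mk.injEq] at he
      obtain ⟨hpe, hw⟩ := he
      have a1 := hp1 q
      have a2 := hp2 q
      have a3 := hp3 q
      have b1 := hp1 q'
      have b2 := hp2 q'
      rw [hpe] at a1 a2 a3 hw
      unfold InRow at a1 b1
      unfold InCol at a2 b2
      by_cases hR : mainR h N (p q').1
      · have hC : ¬ mainC h N (p q').2 := fun hC => a3 ⟨hR, hC⟩
        rw [if_pos hR, if_pos hR] at hw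
        have c1 := a1.1 hR
        have c2 := b1.1 hR
        have c3 := a2.2 hC
        have c4 := b2.2 hC
        refine Prod.ext (Fin.ext (c1.symm.trans c2)) (Prod.ext hw (Fin.ext (c3.symm.trans c4)))
      · rw [if_neg hR, if_neg hR] at hw
        have c1 := a1.2 hR
        have c2 := b1.2 hR
        by_cases hC : mainC h N (p q').2
        · rw [if_pos hC, if_pos hC] at hw
          have c3 := a2.1 hC
          have c4 := b2.1 hC
          exact Prod.ext (Fin.ext (c3.symm.trans c4)) (Prod.ext (Fin.ext (c1.symm.trans c2)) hw)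
        · rw [if_neg hC, if_neg hC] at hw
          have c3 := a2.2 hC
          have c4 := b2.2 hC
          exact Prod.ext hw (Prod.ext (Fin.ext (c1.symm.trans c2)) (Fin.ext (c3.symm.trans c4)))
  simp only [Finset.card_univ, Fintype.card_prod, Fintype.card_fin, Finset.card_product] at hcard
  have : N ^ 2 * N ≤ D.card * N := by
    calc N ^ 2 * N = N * (N * N) := by ring
      _ ≤ D.card * N := hcard
  exact Nat.le_of_mul_le_mul_right this hN0

end Vale.Agent.P037
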