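import Vale.Agent.P037.Dist

/-!
The exponential gap between the distance and the number of copies, and its consequences.
-/

namespace Vale.Agent.P037

lemma isFree_false {n : ℕ} : IsFree pattern (fun _ _ : Fin n => false) := by
  classical
  unfold IsFree numCopies orderedCopies
  rw [Finset.card_eq_zero, Finset.filter_eq_empty_iff]
  rintro p - ⟨-, -, h⟩
  have h1 : false = pattern 16 16 := h 16 16
  have h2 : pattern 16 16 = true := by decide
  rw [h2] at h1
  exact Bool.false_ne_true h1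

lemma distFree_ge {n : ℕ} (A : Fin n → Fin n → Bool) (x : ℕ)
    (h : ∀ B, IsFree pattern B → x ≤ numDiff A B) :
    (x : ℝ) / (n : ℝ) ^ 2 ≤ distFree pattern A := by
  unfold distFree
  refine le_csInf ⟨_, _, isFree_false, rfl⟩ ?_
  rintro y ⟨B, hB, rfl⟩
  have h1 : (x : ℝ) ≤ (numDiff A B : ℝ) := by exact_mod_cast h B hB
  gcongr

/-- The gap: for every `h ≥ 1` and `n ≥ (19 + 5 h) 2 ^ h` there is an `n × n` binary matrix
that is `1 / (4 (19 + 5 h) ^ 2)`-far from pattern-free and has at most `2 ^ (-h) n ^ 34` copies. -/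
theorem gap (h : ℕ) (hh : 1 ≤ h) (n : ℕ) (hn : (19 + 5 * h) * 2 ^ h ≤ n) :
    ∃ A : Fin n → Fin n → Bool,
      1 / (4 * (19 + 5 * (h : ℝ)) ^ 2) ≤ distFree pattern A ∧
      numCopies pattern A * 2 ^ h ≤ n ^ 34 := by
  have hK : 0 < (19 + 5 * h) * 2 ^ h := by positivity
  set m := n / ((19 + 5 * h) * 2 ^ h) with hmdef
  have hm1 : 1 ≤ m := (Nat.one_le_div_iff hK).2 hn
  have hm2 : m * ((19 + 5 * h) * 2 ^ h) ≤ n := Nat.div_mul_le_self n _
  have hm3 : n < (m + 1) * ((19 + 5 * h) * 2 ^ h) := by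
    have := Nat.lt_div_mul_add (a := n) hK
    calc n < n / ((19 + 5 * h) * 2 ^ h) * ((19 + 5 * h) * 2 ^ h) + (19 + 5 * h) * 2 ^ h := this
      _ = (m + 1) * ((19 + 5 * h) * 2 ^ h) := by rw [← hmdef]; ring
  set N := m * 2 ^ h with hNdef
  have hN1 : 19 * N + 5 * (h * N) ≤ n := by
    calc 19 * N + 5 * (h * N) = m * ((19 + 5 * h) * 2 ^ h) := by rw [hNdef]; ring
      _ ≤ n := hm2
  have hN2 : n ≤ 2 * (19 + 5 * h) * N := by
    calc n ≤ (m + 1) * ((19 + 5 * h) * 2 ^ h) := hm3.le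
      _ ≤ (m + m) * ((19 + 5 * h) * 2 ^ h) := by gcongr
      _ = 2 * (19 + 5 * h) * N := by rw [hNdef]; ring
  have hn0 : 0 < n := lt_of_lt_of_le hK hn
  refine ⟨amat h m N n, ?_, ?_⟩
  · have h1 := distFree_ge (amat h m N n) (N ^ 2) (fun B hB => numDiff_ge hh hN1 B hB)
    refine le_trans ?_ h1
    have hnR : (0 : ℝ) < n := by exact_mod_cast hn0
    have h2 : (n : ℝ) ≤ 2 * (19 + 5 * (h : ℝ)) * (N : ℝ) := by exact_mod_cast hN2
    have hKR : (0 : ℝ) < 19 + 5 * (h : ℝ) := by positivity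
    rw [div_le_div_iff₀ (by positivity) (by positivity)]
    push_cast
    calc 1 * (n : ℝ) ^ 2 = (n : ℝ) ^ 2 := by ring
      _ ≤ (2 * (19 + 5 * (h : ℝ)) * (N : ℝ)) ^ 2 := by gcongr
      _ = (N : ℝ) ^ 2 * (4 * (19 + 5 * (h : ℝ)) ^ 2) := by ring
  · have h1 := numCopies_amat_le (n := n) hh hm1 hNdef
    calc numCopies pattern (amat h m N n) * 2 ^ h
        ≤ n * ((h + 1) * m) * (n ^ 16 * n ^ 16) * 2 ^ h := by gcongr
      _ = n * ((h + 1) * N) * (n ^ 16 * n ^ 16) := by rw [hNdef]; ring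
      _ ≤ n * n * (n ^ 16 * n ^ 16) := by
          gcongr
          nlinarith [Nat.zero_le N, Nat.zero_le (h * N)]
      _ = n ^ 34 := by ring

/-- No polynomial lower bound: for all `c, C > 0` the inequality of the removal conjecture
fails for some matrix. -/
theorem not_hasPolynomialRemoval : ¬ HasPolynomialRemoval pattern := by
  rintro ⟨c, C, hc, hC, H⟩
  set D : ℕ := ⌈2 * C⌉₊ with hD
  have hDC : 2 * C ≤ (D : ℝ) := Nat.le_ceil _
  -- the inequality forces `c * 2 ^ h ≤ (48 h) ^ D`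
  have key : ∀ h : ℕ, 1 ≤ h → c / 48 ^ D ≤ (h : ℝ) ^ D / 2 ^ h := by
    intro h hh
    obtain ⟨n, hn⟩ : ∃ n, n = (19 + 5 * h) * 2 ^ h := ⟨_, rfl⟩
    obtain ⟨A, hA1, hA2⟩ := gap h hh n hn.ge
    have hn0 : 0 < n := by rw [hn]; positivity
    have hnR : (0 : ℝ) < n := by exact_mod_cast hn0
    have hhR : (1 : ℝ) ≤ h := by exact_mod_cast hh
    set K : ℝ := 19 + 5 * (h : ℝ) with hKdef
    have hK : 24 ≤ K := by linarith
    have hK' : K ≤ 24 * h := by linarith
    have hε0 : 0 < 1 / (4 * K ^ 2) := by positivity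
    have hε1 : 1 / (4 * K ^ 2) < 1 := by
      rw [div_lt_one (by positivity)]
      nlinarith
    have h1 := H n hn0 _ hε0 hε1 A hA1
    have h2 : (numCopies pattern A : ℝ) * 2 ^ h ≤ (n : ℝ) ^ 34 := by exact_mod_cast hA2
    have hpow : (2 * 17 : ℕ) = 34 := by norm_num
    rw [hpow] at h1
    have h3 : c * (1 / (4 * K ^ 2)) ^ C * 2 ^ h * (n : ℝ) ^ 34 ≤ 1 * (n : ℝ) ^ 34 := by
      calc c * (1 / (4 * K ^ 2)) ^ C * 2 ^ h * (n : ℝ) ^ 34
          = c * (1 / (4 * K ^ 2)) ^ C * (n : ℝ) ^ 34 * 2 ^ h := by ring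
        _ ≤ (numCopies pattern A : ℝ) * 2 ^ h := by gcongr
        _ ≤ 1 * (n : ℝ) ^ 34 := by rw [one_mul]; exact h2
    have h4 : c * (1 / (4 * K ^ 2)) ^ C * 2 ^ h ≤ 1 :=
      le_of_mul_le_mul_right h3 (by positivity)
    have h5 : (1 / (4 * K ^ 2)) ^ C = ((2 * K) ^ (2 * C))⁻¹ := by
      rw [show 4 * K ^ 2 = (2 * K) ^ (2 : ℝ) by
        rw [show (2 : ℝ) = ((2 : ℕ) : ℝ) by norm_num, Real.rpow_natCast]; push_cast; ring]
      rw [one_div, Real.inv_rpow (by positivity), ← Real.rpow_mul (by positivity)]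
    have h6 : (2 * K) ^ (2 * C) ≤ (48 * (h : ℝ)) ^ D := by
      calc (2 * K) ^ (2 * C) ≤ (2 * K) ^ (D : ℝ) :=
            Real.rpow_le_rpow_of_exponent_le (by linarith) hDC
        _ = (2 * K) ^ D := Real.rpow_natCast _ _
        _ ≤ (48 * (h : ℝ)) ^ D := pow_le_pow_left₀ (by positivity) (by linarith) _
    have h7 : 0 < (2 * K) ^ (2 * C) := by positivity
    rw [h5] at h4
    have h8 : c * 2 ^ h ≤ (2 * K) ^ (2 * C) := by
      have : c * ((2 * K) ^ (2 * C))⁻¹ * 2 ^ h = (c * 2 ^ h) / (2 * K) ^ (2 * C) := by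
        rw [div_eq_mul_inv]; ring
      rw [this, div_le_one h7] at h4
      exact h4
    rw [div_le_div_iff₀ (by positivity) (by positivity)]
    calc c * 2 ^ h ≤ (48 * (h : ℝ)) ^ D := h8.trans h6
      _ = (h : ℝ) ^ D * 48 ^ D := by rw [mul_pow]; ring
  have hlim := tendsto_pow_const_div_const_pow_of_one_lt D (r := (2 : ℝ)) (by norm_num)
  have hpos : 0 < c / 48 ^ D := by positivity
  have hev := (hlim.eventually (gt_mem_nhds hpos)).and (Filter.eventually_ge_atTop 1)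
  obtain ⟨h, h1, h2⟩ := hev.exists
  exact absurd (key h h2) (not_le.2 h1)

/-- Exponential upper bound: for every small `ε` and all large `n` there is a matrix that is
`ε`-far from pattern-free with at most `exp (-(log 2 / 20) / √ε) n ^ 34` copies. -/
theorem exp_bound (ε : ℝ) (h0 : 0 < ε) (h1 : ε ≤ 1 / 9216) :
    ∃ n₀ : ℕ, ∀ n : ℕ, n₀ ≤ n → ∃ A : Fin n → Fin n → Bool,
      ε ≤ distFree pattern A ∧
      (numCopies pattern A : ℝ) ≤ Real.exp (-(Real.log 2 / 20) / Real.sqrt ε) * (n : ℝ) ^ 34 := by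
  set s := Real.sqrt ε with hs
  have hs0 : 0 < s := Real.sqrt_pos.2 h0
  have hss : s ^ 2 = ε := Real.sq_sqrt h0.le
  have hs1 : s ≤ 1 / 96 := by
    rw [hs, Real.sqrt_le_left (by norm_num)]
    norm_num
    linarith
  set x := (1 / (2 * s) - 19) / 5 with hx
  have h2s : 48 ≤ 1 / (2 * s) := by
    rw [le_div_iff₀ (by positivity)]
    linarith
  have hx1 : 1 ≤ x := by
    rw [hx, le_div_iff₀ (by norm_num)]
    linarith
  set h : ℕ := ⌊x⌋₊ with hh
  have hh1 : 1 ≤ h := by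
    rw [hh, Nat.one_le_floor_iff]
    exact hx1
  have hle : (h : ℝ) ≤ x := Nat.floor_le (by linarith)
  have hlt : x < h + 1 := Nat.lt_floor_add_one x
  refine ⟨(19 + 5 * h) * 2 ^ h, fun n hn => ?_⟩
  obtain ⟨A, hA1, hA2⟩ := gap h hh1 n hn
  refine ⟨A, le_trans ?_ hA1, ?_⟩
  · rw [le_div_iff₀ (by positivity), ← hss]
    have hK : (19 + 5 * (h : ℝ)) ≤ 1 / (2 * s) := by
      rw [hx] at hle
      linarith
    calc s ^ 2 * (4 * (19 + 5 * (h : ℝ)) ^ 2) ≤ s ^ 2 * (4 * (1 / (2 * s)) ^ 2) := by gcongr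
      _ = 1 := by field_simp; norm_num
  · have h2 : (numCopies pattern A : ℝ) * 2 ^ h ≤ (n : ℝ) ^ 34 := by exact_mod_cast hA2
    have h3 : (1 : ℝ) / (20 * s) ≤ h := by
      have e1 : (1 : ℝ) / (20 * s) = (1 / (2 * s)) / 10 := by field_simp; norm_num
      rw [e1]
      rw [hx] at hlt
      linarith
    have h4 : (2 : ℝ) ^ h = Real.exp (Real.log 2 * h) := by
      rw [mul_comm, Real.exp_nat_mul, Real.exp_log (by norm_num)]
    have h5 : Real.exp (-(Real.log 2 / 20) / s) * Real.exp (Real.log 2 * h) ≥ 1 := by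
      rw [← Real.exp_add]
      apply Real.one_le_exp
      have hl : 0 < Real.log 2 := Real.log_pos (by norm_num)
      have e2 : -(Real.log 2 / 20) / s = - (Real.log 2 * (1 / (20 * s))) := by
        field_simp
      rw [e2]
      nlinarith
    have hn0 : (0 : ℝ) ≤ (n : ℝ) ^ 34 := by positivity
    have hc0 : (0 : ℝ) ≤ (numCopies pattern A : ℝ) := by positivity
    rw [h4] at h2
    have he : 0 < Real.exp (-(Real.log 2 / 20) / s) := Real.exp_pos _
    calc (numCopies pattern A : ℝ) = (numCopies pattern A : ℝ) * 1 := by ring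
      _ ≤ (numCopies pattern A : ℝ) *
          (Real.exp (-(Real.log 2 / 20) / s) * Real.exp (Real.log 2 * h)) := by gcongr
      _ = Real.exp (-(Real.log 2 / 20) / s) *
          ((numCopies pattern A : ℝ) * Real.exp (Real.log 2 * h)) := by ring
      _ ≤ Real.exp (-(Real.log 2 / 20) / s) * (n : ℝ) ^ 34 := by gcongr

end Vale.Agent.P037
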