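import Vale.Agent.P037.Core

/-!
The marker part: the non-marker classes avoid the triangular pattern, hence every embedding of the
pattern respects the sorts.
-/

namespace Vale.Agent.P037

lemma exists_lt3 {n : ℕ} (S : Finset (Fin n)) (h : 2 < S.card) :
    ∃ a b c, a ∈ S ∧ b ∈ S ∧ c ∈ S ∧ a < b ∧ b < c := by
  let f := S.orderEmbOfFin rfl
  refine ⟨f ⟨0, by omega⟩, f ⟨1, by omega⟩, f ⟨2, by omega⟩, S.orderEmbOfFin_mem rfl _,
    S.orderEmbOfFin_mem rfl _, S.orderEmbOfFin_mem rfl _, f.strictMono ?_, f.strictMono ?_⟩ <;>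
  simp [Fin.lt_def]

lemma exists_lt4 {n : ℕ} (S : Finset (Fin n)) (h : 3 < S.card) :
    ∃ a b c d, a ∈ S ∧ b ∈ S ∧ c ∈ S ∧ d ∈ S ∧ a < b ∧ b < c ∧ c < d := by
  let f := S.orderEmbOfFin rfl
  refine ⟨f ⟨0, by omega⟩, f ⟨1, by omega⟩, f ⟨2, by omega⟩, f ⟨3, by omega⟩,
    S.orderEmbOfFin_mem rfl _,
    S.orderEmbOfFin_mem rfl _, S.orderEmbOfFin_mem rfl _, S.orderEmbOfFin_mem rfl _,
    f.strictMono ?_, f.strictMono ?_, f.strictMono ?_⟩ <;>
  simp [Fin.lt_def]

lemma RC.rk_eq_two {x : RC} (h : x.rk = 2) : ∃ i u, x = .M i u := by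
  cases x <;> simp_all [RC.rk]

lemma RC.rk_eq_five {x : RC} (h : x.rk = 5) : ∃ t d, x = .R t d := by
  cases x <;> simp_all [RC.rk]

lemma RC.rk_eq_zero {x : RC} (h : x.rk = 0) : ∃ i, x = .Z i := by
  cases x <;> simp_all [RC.rk]

lemma CC.rk_eq_two {x : CC} (h : x.rk = 2) : ∃ i u, x = .M i u := by
  cases x <;> simp_all [CC.rk]

lemma CC.rk_eq_three {x : CC} (h : x.rk = 3) : ∃ t d, x = .C t d := by
  cases x <;> simp_all [CC.rk]

lemma CC.rk_eq_zero {x : CC} (h : x.rk = 0) : ∃ i, x = .Z i := by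
  cases x <;> simp_all [CC.rk]

lemma RC.rk_le (x : RC) : x.rk ≤ 5 := by cases x <;> simp [RC.rk]

lemma CC.rk_le (x : CC) : x.rk ≤ 3 := by cases x <;> simp [CC.rk]

lemma RC.eq_of_rk {x y : RC} (h : x.rk = y.rk) (h' : x.rk = 1 ∨ x.rk = 3 ∨ x.rk = 4) : x = y := by
  cases x <;> cases y <;> simp_all [RC.rk]

lemma CC.eq_of_rk {x y : CC} (h : x.rk = y.rk) (h' : x.rk = 1) : x = y := by
  cases x <;> cases y <;> simp_all [CC.rk]

lemma mm2 {h i u u' j v : ℕ} (hu : u ≤ u') (he : ent h (.M i u') (.M j v) = true) :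
    ent h (.M i u) (.M j v) = true := by
  simp only [ent, Bool.and_eq_true, decide_eq_true_eq] at *
  exact ⟨he.1, rho_mono hu le_rfl he.2⟩

/-- The non-marker classes avoid the `14 × 14` triangular pattern. -/
theorem noF {h : ℕ} (x : Fin 14 → RC) (y : Fin 14 → CC) (hx1 : ∀ l, 1 ≤ (x l).rk)
    (hy1 : ∀ l, 1 ≤ (y l).rk) (mono : ∀ l l', l < l' → (x l).le (x l'))
    (hE : ∀ l m, ent h (x l) (y m) = decide (m ≤ l)) : False := by
  have hT : ∀ l m, m ≤ l → ent h (x l) (y m) = true := fun l m hml => by rw [hE]; simpa using hml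
  have hF : ∀ l m, l < m → ent h (x l) (y m) = false := fun l m hml => by
    rw [hE]; simpa using hml
  have xinj : ∀ l l', l < l' → x l ≠ x l' := by
    intro l l' hll he
    have h1 := hF l l' hll
    have h2 := hT l' l' le_rfl
    rw [he, h2] at h1
    exact absurd h1 (by simp)
  have yinj : ∀ l l', l < l' → y l ≠ y l' := by
    intro l l' hll he
    have h1 := hF l l' hll
    have h2 := hT l l le_rfl
    rw [← he, h2] at h1
    exact absurd h1 (by simp)
  have xinj' : ∀ l l', x l = x l' → l = l' := by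
    intro l l' he
    rcases lt_trichotomy l l' with h' | h' | h'
    · exact absurd he (xinj _ _ h')
    · exact h'
    · exact absurd he.symm (xinj _ _ h')
  have yinj' : ∀ l l', y l = y l' → l = l' := by
    intro l l' he
    rcases lt_trichotomy l l' with h' | h' | h'
    · exact absurd he (yinj _ _ h')
    · exact h'
    · exact absurd he.symm (yinj _ _ h')
  -- the eight classes of indices
  set S1 : Finset (Fin 14) := Finset.univ.filter (fun l => (x l).rk = 1) with hS1
  set S3 : Finset (Fin 14) := Finset.univ.filter (fun l => (x l).rk = 3) with hS3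
  set S4 : Finset (Fin 14) := Finset.univ.filter (fun l => (x l).rk = 4) with hS4
  set T1 : Finset (Fin 14) := Finset.univ.filter (fun l => (y l).rk = 1) with hT1
  set MM : Finset (Fin 14) := Finset.univ.filter (fun l => (x l).rk = 2 ∧ (y l).rk = 2) with hMM
  set MC : Finset (Fin 14) := Finset.univ.filter (fun l => (x l).rk = 2 ∧ (y l).rk = 3) with hMC
  set RM : Finset (Fin 14) := Finset.univ.filter (fun l => (x l).rk = 5 ∧ (y l).rk = 2) with hRM
  set RR : Finset (Fin 14) := Finset.univ.filter (fun l => (x l).rk = 5 ∧ (y l).rk = 3) with hRR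
  have cS1 : S1.card ≤ 1 := by
    rw [Finset.card_le_one]
    intro a ha b hb
    simp only [hS1, Finset.mem_filter, Finset.mem_univ, true_and] at ha hb
    exact xinj' _ _ (RC.eq_of_rk (by rw [ha, hb]) (Or.inl ha))
  have cS3 : S3.card ≤ 1 := by
    rw [Finset.card_le_one]
    intro a ha b hb
    simp only [hS3, Finset.mem_filter, Finset.mem_univ, true_and] at ha hb
    exact xinj' _ _ (RC.eq_of_rk (by rw [ha, hb]) (Or.inr (Or.inl ha)))
  have cS4 : S4.card ≤ 1 := by
    rw [Finset.card_le_one]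
    intro a ha b hb
    simp only [hS4, Finset.mem_filter, Finset.mem_univ, true_and] at ha hb
    exact xinj' _ _ (RC.eq_of_rk (by rw [ha, hb]) (Or.inr (Or.inr ha)))
  have cT1 : T1.card ≤ 1 := by
    rw [Finset.card_le_one]
    intro a ha b hb
    simp only [hT1, Finset.mem_filter, Finset.mem_univ, true_and] at ha hb
    exact yinj' _ _ (CC.eq_of_rk (by rw [ha, hb]) ha)
  have cMM : MM.card ≤ 2 := by
    by_contra hcon
    obtain ⟨a, b, c, ha, hb, hc, hab, hbc⟩ := exists_lt3 MM (by omega)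
    simp only [hMM, Finset.mem_filter, Finset.mem_univ, true_and] at ha hb hc
    obtain ⟨ia, ua, xa⟩ := RC.rk_eq_two ha.1
    obtain ⟨ib, ub, xb⟩ := RC.rk_eq_two hb.1
    obtain ⟨ic, uc, xc⟩ := RC.rk_eq_two hc.1
    obtain ⟨ja, va, ya⟩ := CC.rk_eq_two ha.2
    obtain ⟨jb, vb, yb⟩ := CC.rk_eq_two hb.2
    obtain ⟨jc, vc, yc⟩ := CC.rk_eq_two hc.2
    have haa := hT a a le_rfl
    have hba := hT b a hab.le
    have hca := hT c a (hab.trans hbc).le
    rw [xa, ya] at haa
    rw [xb, ya] at hba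
    rw [xc, ya] at hca
    simp only [ent, Bool.and_eq_true, decide_eq_true_eq] at haa hba hca
    have key : ∀ l l' i u u' j v, l < l' → x l = .M i u → x l' = .M i u' → y l' = .M j v →
        False := by
      intro l l' i u u' j v hll h1 h2 h3
      have hle := mono l l' hll
      rw [h1, h2] at hle
      have t1 := hT l' l' le_rfl
      have f1 := hF l l' hll
      rw [h2, h3] at t1
      rw [h1, h3] at f1
      rw [mm2 hle t1] at f1
      exact absurd f1 (by simp)
    rcases Nat.lt_trichotomy ia ib with e | e | e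
    · rcases Nat.lt_trichotomy ib ic with e' | e' | e'
      · omega
      · subst e'; exact key b c _ _ _ _ _ hbc xb xc yc
      · have : ia = ic := by omega
        subst this; exact key a c _ _ _ _ _ (hab.trans hbc) xa xc yc
    · subst e; exact key a b _ _ _ _ _ hab xa xb yb
    · rcases Nat.lt_trichotomy ib ic with e' | e' | e'
      · have : ia = ic := by omega
        subst this; exact key a c _ _ _ _ _ (hab.trans hbc) xa xc yc
      · subst e'; exact key b c _ _ _ _ _ hbc xb xc yc
      · omega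
  have cMC : MC.card ≤ 3 := by
    by_contra hcon
    obtain ⟨a, b, c, e, ha, hb, hc, he, hab, hbc, hce⟩ := exists_lt4 MC (by omega)
    simp only [hMC, Finset.mem_filter, Finset.mem_univ, true_and] at ha hb hc he
    obtain ⟨i, u, xe⟩ := RC.rk_eq_two he.1
    obtain ⟨ta, da, ya⟩ := CC.rk_eq_three ha.2
    obtain ⟨tb, db, yb⟩ := CC.rk_eq_three hb.2
    obtain ⟨tc, dc, yc⟩ := CC.rk_eq_three hc.2
    obtain ⟨te, de, ye⟩ := CC.rk_eq_three he.2
    have h1 := hT e a (hab.trans (hbc.trans hce)).le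
    have h2 := hT e b (hbc.trans hce).le
    have h3 := hT e c hce.le
    have h4 := hT e e le_rfl
    rw [xe, ya] at h1
    rw [xe, yb] at h2
    rw [xe, yc] at h3
    rw [xe, ye] at h4
    simp only [ent, decide_eq_true_eq] at h1 h2 h3 h4
    have key : ∀ l l' t t' d d', l < l' → y l = .C t d → y l' = .C t' d' → gam h t u = d →
        gam h t' u = d' → t ≠ t' := by
      intro l l' t t' d d' hll y1 y2 g1 g2 htt
      subst htt
      apply yinj l l' hll
      rw [y1, y2, ← g1, ← g2]
    have k1 := key a b _ _ _ _ hab ya yb h1.2.2 h2.2.2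
    have k2 := key a c _ _ _ _ (hab.trans hbc) ya yc h1.2.2 h3.2.2
    have k3 := key a e _ _ _ _ (hab.trans (hbc.trans hce)) ya ye h1.2.2 h4.2.2
    have k4 := key b c _ _ _ _ hbc yb yc h2.2.2 h3.2.2
    have k5 := key b e _ _ _ _ (hbc.trans hce) yb ye h2.2.2 h4.2.2
    have k6 := key c e _ _ _ _ hce yc ye h3.2.2 h4.2.2
    omega
  have cRM : RM.card ≤ 3 := by
    by_contra hcon
    obtain ⟨a, b, c, e, ha, hb, hc, he, hab, hbc, hce⟩ := exists_lt4 RM (by omega)
    simp only [hRM, Finset.mem_filter, Finset.mem_univ, true_and] at ha hb hc he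
    obtain ⟨j, v, ya⟩ := CC.rk_eq_two ha.2
    obtain ⟨ta, da, xa⟩ := RC.rk_eq_five ha.1
    obtain ⟨tb, db, xb⟩ := RC.rk_eq_five hb.1
    obtain ⟨tc, dc, xc⟩ := RC.rk_eq_five hc.1
    obtain ⟨te, de, xe⟩ := RC.rk_eq_five he.1
    have h1 := hT a a le_rfl
    have h2 := hT b a hab.le
    have h3 := hT c a (hab.trans hbc).le
    have h4 := hT e a (hab.trans (hbc.trans hce)).le
    rw [xa, ya] at h1
    rw [xb, ya] at h2
    rw [xc, ya] at h3
    rw [xe, ya] at h4
    simp only [ent, decide_eq_true_eq] at h1 h2 h3 h4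
    have key : ∀ l l' t t' d d', l < l' → x l = .R t d → x l' = .R t' d' → gam h t v = d →
        gam h t' v = d' → t ≠ t' := by
      intro l l' t t' d d' hll y1 y2 g1 g2 htt
      subst htt
      apply xinj l l' hll
      rw [y1, y2, ← g1, ← g2]
    have k1 := key a b _ _ _ _ hab xa xb h1.2.2 h2.2.2
    have k2 := key a c _ _ _ _ (hab.trans hbc) xa xc h1.2.2 h3.2.2
    have k3 := key a e _ _ _ _ (hab.trans (hbc.trans hce)) xa xe h1.2.2 h4.2.2
    have k4 := key b c _ _ _ _ hbc xb xc h2.2.2 h3.2.2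
    have k5 := key b e _ _ _ _ (hbc.trans hce) xb xe h2.2.2 h4.2.2
    have k6 := key c e _ _ _ _ hce xc xe h3.2.2 h4.2.2
    omega
  have cRR : RR.card ≤ 1 := by
    rw [Finset.card_le_one]
    have key : ∀ a b, a < b → a ∈ RR → b ∈ RR → False := by
      intro a b hab ha hb
      simp only [hRR, Finset.mem_filter, Finset.mem_univ, true_and] at ha hb
      obtain ⟨t, d, xb⟩ := RC.rk_eq_five hb.1
      obtain ⟨ta, da, ya⟩ := CC.rk_eq_three ha.2
      obtain ⟨tb, db, yb⟩ := CC.rk_eq_three hb.2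
      have h1 := hT b a hab.le
      have h2 := hT b b le_rfl
      rw [xb, ya] at h1
      rw [xb, yb] at h2
      simp only [ent, decide_eq_true_eq] at h1 h2
      apply yinj a b hab
      rw [ya, yb, ← h1.1, ← h1.2, ← h2.1, ← h2.2]
    intro a ha b hb
    rcases lt_trichotomy a b with h' | h' | h'
    · exact (key a b h' ha hb).elim
    · exact h'
    · exact (key b a h' hb ha).elim
  have hcover : (Finset.univ : Finset (Fin 14)) ⊆
      S1 ∪ (S3 ∪ (S4 ∪ (T1 ∪ (MM ∪ (MC ∪ (RM ∪ RR)))))) := by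
    intro l _
    simp only [Finset.mem_union, hS1, hS3, hS4, hT1, hMM, hMC, hRM, hRR, Finset.mem_filter,
      Finset.mem_univ, true_and]
    have h1 := hx1 l
    have h2 := hy1 l
    have h3 := RC.rk_le (x l)
    have h4 := CC.rk_le (y l)
    omega
  have h0 := Finset.card_le_card hcover
  have e1 := Finset.card_union_le S1 (S3 ∪ (S4 ∪ (T1 ∪ (MM ∪ (MC ∪ (RM ∪ RR))))))
  have e2 := Finset.card_union_le S3 (S4 ∪ (T1 ∪ (MM ∪ (MC ∪ (RM ∪ RR)))))
  have e3 := Finset.card_union_le S4 (T1 ∪ (MM ∪ (MC ∪ (RM ∪ RR))))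
  have e4 := Finset.card_union_le T1 (MM ∪ (MC ∪ (RM ∪ RR)))
  have e5 := Finset.card_union_le MM (MC ∪ (RM ∪ RR))
  have e6 := Finset.card_union_le MC (RM ∪ RR)
  have e7 := Finset.card_union_le RM RR
  simp only [Finset.card_univ, Fintype.card_fin] at h0
  omega

/-- The `17 × 17` pattern. -/
def pattern (i j : Fin 17) : Bool :=
  if i.val < 14 ∧ j.val < 14 then decide (13 ≤ i.val + j.val)
  else if i.val < 14 then decide (j.val = 16)
  else if j.val < 14 then decide (i.val = 16)
  else !(decide (i.val = 14 ∧ j.val = 15))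

lemma ent_Z_true {h n : ℕ} {x : RC} (he : ent h x (.Z n) = true) (hx : 1 ≤ x.rk) : x.rk = 5 := by
  cases x <;> simp_all [ent, RC.rk]

lemma ent_Z_false {h n : ℕ} {x : RC} (he : ent h x (.Z n) = false) : x.rk ≠ 5 := by
  cases x <;> simp_all [ent, RC.rk]

lemma ent_Z_true' {h n : ℕ} {y : CC} (he : ent h (.Z n) y = true) (hy : 1 ≤ y.rk) : y.rk = 3 := by
  cases y <;> simp_all [ent, CC.rk]

lemma ent_Z_false' {h n : ℕ} {y : CC} (he : ent h (.Z n) y = false) : y.rk ≠ 3 := by
  cases y <;> simp_all [ent, CC.rk]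

/-- Every class-level embedding of the pattern has its two critical elements in one cell. -/
theorem embed_core {h : ℕ} (hh : 1 ≤ h) (x : Fin 17 → RC) (y : Fin 17 → CC)
    (vx : ∀ i, (x i).Valid h) (vy : ∀ j, (y j).Valid h)
    (mx : ∀ i j, i < j → (x i).le (x j)) (my : ∀ i j, i < j → (y i).le (y j))
    (hE : ∀ i j, ent h (x i) (y j) = pattern i j) :
    ∃ i u j, x 14 = .M i u ∧ y 15 = .M j u := by
  have rx : ∀ i j, i ≤ j → (x i).rk ≤ (x j).rk := by
    intro i j hij
    rcases hij.lt_or_eq with h' | h'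
    · exact RC.le_rk (mx i j h')
    · rw [h']
  have ry : ∀ i j, i ≤ j → (y i).rk ≤ (y j).rk := by
    intro i j hij
    rcases hij.lt_or_eq with h' | h'
    · exact CC.le_rk (my i j h')
    · rw [h']
  have cl1 : 1 ≤ (x 13).rk → ∀ j : Fin 17, j.val < 14 → 1 ≤ (y j).rk := by
    intro h13 j hj
    by_contra hcon
    obtain ⟨n, hn⟩ := CC.rk_eq_zero (x := y j) (by omega)
    have e1 := hE 13 j
    have e2 := hE 14 j
    rw [hn] at e1 e2
    have p1 : pattern 13 j = true := by
      simp [pattern, hj]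
    have p2 : pattern 14 j = false := by
      simp [pattern, hj]
    rw [p1] at e1; rw [p2] at e2
    have r1 := ent_Z_true e1 h13
    have r2 := ent_Z_false e2
    have r3 := rx 13 14 (by decide)
    have r4 := RC.rk_le (x 14)
    omega
  have cl2 : 1 ≤ (y 13).rk → ∀ i : Fin 17, i.val < 14 → 1 ≤ (x i).rk := by
    intro h13 j hj
    by_contra hcon
    obtain ⟨n, hn⟩ := RC.rk_eq_zero (x := x j) (by omega)
    have e1 := hE j 13
    have e2 := hE j 14
    rw [hn] at e1 e2
    have p1 : pattern j 13 = true := by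
      simp [pattern, hj]
    have p2 : pattern j 14 = false := by
      simp [pattern, hj]
    rw [p1] at e1; rw [p2] at e2
    have r1 := ent_Z_true' e1 h13
    have r2 := ent_Z_false' e2
    have r3 := ry 13 14 (by decide)
    have r4 := CC.rk_le (y 14)
    omega
  have noall : ¬ ((∀ i : Fin 17, i.val < 14 → 1 ≤ (x i).rk) ∧
      (∀ j : Fin 17, j.val < 14 → 1 ≤ (y j).rk)) := by
    rintro ⟨a1, a2⟩
    refine noF (h := h) (fun l => x ⟨l.val, by omega⟩) (fun m => y ⟨13 - m.val, by omega⟩)
      (fun l => a1 _ l.isLt) (fun m => a2 _ (by simp only; omega)) ?_ ?_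
    · intro l l' hll
      exact mx _ _ (show (l : ℕ) < (l' : ℕ) from hll)
    · intro l m
      rw [hE]
      have hl := l.isLt
      have hm := m.isLt
      simp only [pattern]
      rw [if_pos (by constructor <;> omega)]
      congr 1
      apply propext
      rw [Fin.le_def]
      omega
  have hx13 : (x 13).rk = 0 := by
    by_contra hcon
    have c1 := cl1 (by omega)
    exact noall ⟨cl2 (c1 13 (by decide)), c1⟩
  have hy13 : (y 13).rk = 0 := by
    by_contra hcon
    have c1 := cl2 (by omega)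
    exact noall ⟨c1, cl1 (c1 13 (by decide))⟩
  obtain ⟨a, ha⟩ := RC.rk_eq_zero hx13
  obtain ⟨b, hb⟩ := CC.rk_eq_zero hy13
  obtain ⟨c, hc⟩ := CC.rk_eq_zero (x := y 0) (by have := ry 0 13 (by decide); omega)
  obtain ⟨e, he⟩ := RC.rk_eq_zero (x := x 0) (by have := rx 0 13 (by decide); omega)
  have hx14 : 1 ≤ (x 14).rk := by
    by_contra hcon
    obtain ⟨m, hm⟩ := RC.rk_eq_zero (x := x 14) (by omega)
    have e1 := hE 13 0
    have e2 := hE 14 0
    have hle := mx 13 14 (by decide)
    rw [ha, hm] at hle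
    rw [ha, hc] at e1
    rw [hm, hc] at e2
    have p1 : pattern 13 0 = true := by decide
    have p2 : pattern 14 0 = false := by decide
    rw [p1] at e1; rw [p2] at e2
    simp only [ent, decide_eq_true_eq, decide_eq_false_iff_not] at e1 e2
    simp only [RC.le] at hle
    omega
  have hy14 : 1 ≤ (y 14).rk := by
    by_contra hcon
    obtain ⟨m, hm⟩ := CC.rk_eq_zero (x := y 14) (by omega)
    have e1 := hE 0 13
    have e2 := hE 0 14
    have hle := my 13 14 (by decide)
    rw [hb, hm] at hle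
    rw [he, hb] at e1
    rw [he, hm] at e2
    have p1 : pattern 0 13 = true := by decide
    have p2 : pattern 0 14 = false := by decide
    rw [p1] at e1; rw [p2] at e2
    simp only [ent, decide_eq_true_eq, decide_eq_false_iff_not] at e1 e2
    simp only [CC.le] at hle
    omega
  have hx15 : (x 15).rk ≤ 4 := by
    have e1 := hE 15 0
    rw [hc, show pattern 15 0 = false by decide] at e1
    have := ent_Z_false e1
    have := RC.rk_le (x 15)
    omega
  have hy15 : (y 15).rk ≤ 2 := by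
    have e1 := hE 0 15
    rw [he, show pattern 0 15 = false by decide] at e1
    have := ent_Z_false' e1
    have := CC.rk_le (y 15)
    omega
  obtain ⟨t, d, hx16⟩ : ∃ t d, x 16 = .R t d := by
    have e1 := hE 16 0
    rw [hc, show pattern 16 0 = true by decide] at e1
    exact RC.rk_eq_five (ent_Z_true e1 (hx14.trans (rx 14 16 (by decide))))
  obtain ⟨t', d', hy16⟩ : ∃ t d, y 16 = .C t d := by
    have e1 := hE 0 16
    rw [he, show pattern 0 16 = true by decide] at e1
    exact CC.rk_eq_three (ent_Z_true' e1 (hy14.trans (ry 14 16 (by decide))))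
  have g13 := hE 14 16
  have g23 := hE 15 16
  have g31 := hE 16 14
  have g32 := hE 16 15
  have g33 := hE 16 16
  rw [hy16] at g13 g23 g33
  rw [hx16] at g31 g32 g33
  exact core hh (vx 14) (vx 15) (vy 14) (vy 15) hx14 hx15 hy14 hy15 (mx 14 15 (by decide))
    (my 14 15 (by decide)) (by rw [hE]; decide) (by rw [hE]; decide) (by rw [hE]; decide)
    (by rw [hE]; decide) (by rw [g13]; decide) (by rw [g23]; decide) (by rw [g31]; decide)
    (by rw [g32]; decide) (by rw [g33]; decide)

end Vale.Agent.P037
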