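import Vale.Agent.P037.Defs
import Vale.Agent.P037.Marker

/-!
The concrete matrices and the two estimates: few copies, large distance.
-/

namespace Vale.Agent.P037

/-- class of a row index -/
def rcls (h m N r : ℕ) : RC :=
  if r < 14 * N then .Z (r / N)
  else if r < 15 * N then .W3
  else if r < 15 * N + h * N then .M (h - (r - 15 * N) % h) ((r - 15 * N) / h / m)
  else if r < 16 * N + h * N then .W2
  else if r < 17 * N + h * N then .W1
  else .R ((r - (17 * N + h * N)) / N / 2) ((r - (17 * N + h * N)) / N % 2)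

/-- class of a column index -/
def ccls (h m N c : ℕ) : CC :=
  if c < 14 * N then .Z (c / N)
  else if c < 15 * N then .W
  else if c < 16 * N + h * N then .M ((c - 15 * N) % (h + 1)) ((c - 15 * N) / (h + 1) / m)
  else .C ((c - (16 * N + h * N)) / N / 2) ((c - (16 * N + h * N)) / N % 2)

/-- the matrix -/
def amat (h m N n : ℕ) (r c : Fin n) : Bool := ent h (rcls h m N r) (ccls h m N c)

lemma rcls_le {h m N r r' : ℕ} (hr : r < r') : (rcls h m N r).le (rcls h m N r') := by
  unfold rcls
  generalize h * N = K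
  have a1 : r / N ≤ r' / N := Nat.div_le_div_right hr.le
  have a2 : (r - 15 * N) / h / m ≤ (r' - 15 * N) / h / m :=
    Nat.div_le_div_right (Nat.div_le_div_right (by omega))
  split_ifs <;> first | omega | simp [RC.le, RC.rk, a1, a2]

lemma ccls_le {h m N r r' : ℕ} (hr : r < r') : (ccls h m N r).le (ccls h m N r') := by
  unfold ccls
  generalize h * N = K
  have a1 : r / N ≤ r' / N := Nat.div_le_div_right hr.le
  have a2 : (r - 15 * N) / (h + 1) / m ≤ (r' - 15 * N) / (h + 1) / m :=
    Nat.div_le_div_right (Nat.div_le_div_right (by omega))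
  split_ifs <;> first | omega | simp [CC.le, CC.rk, a1, a2]

lemma rcls_valid {h m N : ℕ} (hh : 1 ≤ h) (hN : N = m * 2 ^ h) (r : ℕ) :
    (rcls h m N r).Valid h := by
  unfold rcls
  split_ifs with h1 h2 h3 h4 h5
  · simp [RC.Valid]
  · simp [RC.Valid]
  · have hlt : (r - 15 * N) % h < h := Nat.mod_lt _ (by omega)
    refine ⟨by omega, by omega, ?_⟩
    have e1 : r - 15 * N < h * (m * 2 ^ h) := by rw [← hN]; omega
    exact Nat.div_lt_of_lt_mul (Nat.div_lt_of_lt_mul e1)
  · simp [RC.Valid]
  · simp [RC.Valid]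
  · simp [RC.Valid]

lemma ccls_valid {h m N : ℕ} (hN : N = m * 2 ^ h) (r : ℕ) :
    (ccls h m N r).Valid h := by
  unfold ccls
  split_ifs with h1 h2 h3
  · simp [CC.Valid]
  · simp [CC.Valid]
  · have hlt : (r - 15 * N) % (h + 1) < h + 1 := Nat.mod_lt _ (by omega)
    refine ⟨by omega, ?_⟩
    have e1 : r - 15 * N < (h + 1) * (m * 2 ^ h) := by
      rw [← hN, Nat.add_mul]; omega
    exact Nat.div_lt_of_lt_mul (Nat.div_lt_of_lt_mul e1)
  · simp [CC.Valid]

/-! ### Few copies -/

lemma numCopies_le {k n : ℕ} (H : Fin (k + 1) → Fin (k + 1) → Bool) (A : Fin n → Fin n → Bool)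
    (a b : Fin (k + 1)) (P : Finset (Fin n × Fin n))
    (hP : ∀ p ∈ orderedCopies H A, (p.1 a, p.2 b) ∈ P) :
    numCopies H A ≤ P.card * (n ^ k * n ^ k) := by
  classical
  have hcard : (P ×ˢ (Finset.univ : Finset ((Fin k → Fin n) × (Fin k → Fin n)))).card
      = P.card * (n ^ k * n ^ k) := by
    simp [Finset.card_product]
  rw [← hcard]
  refine Finset.card_le_card_of_injOn
    (fun p => ((p.1 a, p.2 b), (fun i => p.1 (a.succAbove i)), (fun j => p.2 (b.succAbove j))))
    ?_ ?_
  · intro p hp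
    have := hP p hp
    simp [this]
  · intro p _ q _ hpq
    simp only [Prod.mk.injEq] at hpq
    obtain ⟨⟨h1, h2⟩, h3, h4⟩ := hpq
    refine Prod.ext ?_ ?_
    · funext i
      rcases Fin.eq_self_or_eq_succAbove a i with e | ⟨j, e⟩
      · rw [e]; exact h1
      · rw [e]; exact congrFun h3 j
    · funext i
      rcases Fin.eq_self_or_eq_succAbove b i with e | ⟨j, e⟩
      · rw [e]; exact h2
      · rw [e]; exact congrFun h4 j

open Classical in
lemma card_cell_le {h m N n : ℕ} (hm : 1 ≤ m) (u : ℕ) :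
    (Finset.univ.filter fun c : Fin n => ∃ j, ccls h m N c = CC.M j u).card ≤ (h + 1) * m := by
  have hpos : 0 < (h + 1) * m := Nat.mul_pos (by omega) (by omega)
  have hsub : ((Finset.univ.filter fun c : Fin n => ∃ j, ccls h m N c = CC.M j u).image
      (fun c : Fin n => (c : ℕ))) ⊆
      Finset.Ico (15 * N + (h + 1) * m * u) (15 * N + (h + 1) * m * u + (h + 1) * m) := by
    intro x hx
    simp only [Finset.mem_image, Finset.mem_filter, Finset.mem_univ, true_and] at hx
    obtain ⟨c, ⟨j, hj⟩, rfl⟩ := hx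
    unfold ccls at hj
    split_ifs at hj with h1 h2 h3
    simp only [CC.M.injEq] at hj
    have hq := hj.2
    rw [Nat.div_div_eq_div_mul] at hq
    have e1 := Nat.div_add_mod ((c : ℕ) - 15 * N) ((h + 1) * m)
    have e2 := Nat.mod_lt ((c : ℕ) - 15 * N) hpos
    rw [hq] at e1
    rw [Finset.mem_Ico]
    generalize (h + 1) * m * u = K at *
    generalize (h + 1) * m = L at *
    omega
  have := Finset.card_le_card hsub
  rw [Finset.card_image_of_injective _ Fin.val_injective, Nat.card_Ico] at this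
  omega

theorem numCopies_amat_le {h m N n : ℕ} (hh : 1 ≤ h) (hm : 1 ≤ m) (hN : N = m * 2 ^ h) :
    numCopies pattern (amat h m N n) ≤ n * ((h + 1) * m) * (n ^ 16 * n ^ 16) := by
  classical
  set P : Finset (Fin n × Fin n) := Finset.univ.filter fun p =>
    ∃ i u j, rcls h m N p.1 = RC.M i u ∧ ccls h m N p.2 = CC.M j u with hPdef
  have hPcard : P.card ≤ n * ((h + 1) * m) := by
    have h1 : P ⊆ (Finset.univ : Finset (Fin n)).biUnion (fun r =>
        (Finset.univ.filter fun c : Fin n => ∃ i u j, rcls h m N r = RC.M i u ∧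
          ccls h m N c = CC.M j u).image (fun c => (r, c))) := by
      intro p hp
      simp only [hPdef, Finset.mem_filter, Finset.mem_univ, true_and] at hp
      simp only [Finset.mem_biUnion, Finset.mem_univ, true_and, Finset.mem_image,
        Finset.mem_filter]
      exact ⟨p.1, p.2, hp, rfl⟩
    refine (Finset.card_le_card h1).trans ?_
    refine (Finset.card_biUnion_le_card_mul _ _ ((h + 1) * m) ?_).trans ?_
    · intro r _
      refine Finset.card_image_le.trans ?_
      by_cases hr : ∃ i u, rcls h m N r = RC.M i u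
      · obtain ⟨i, u, hr⟩ := hr
        refine le_trans (Finset.card_le_card ?_) (card_cell_le (h := h) (N := N) (n := n) hm u)
        intro c hc
        simp only [Finset.mem_filter, Finset.mem_univ, true_and] at hc ⊢
        obtain ⟨i', u', j, hr', hc⟩ := hc
        rw [hr] at hr'
        simp only [RC.M.injEq] at hr'
        exact ⟨j, by rw [hc, hr'.2]⟩
      · have : (Finset.univ.filter fun c : Fin n => ∃ i u j, rcls h m N r = RC.M i u ∧
          ccls h m N c = CC.M j u) = ∅ := by
          rw [Finset.filter_eq_empty_iff]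
          rintro c _ ⟨i, u, j, h1, _⟩
          exact hr ⟨i, u, h1⟩
        rw [this]; simp
    · simp
  refine (numCopies_le pattern (amat h m N n) 14 15 P ?_).trans (Nat.mul_le_mul_right _ hPcard)
  intro p hp
  simp only [orderedCopies, Finset.mem_filter, Finset.mem_univ, true_and] at hp
  obtain ⟨hp1, hp2, hp3⟩ := hp
  simp only [hPdef, Finset.mem_filter, Finset.mem_univ, true_and]
  exact embed_core hh (fun i => rcls h m N (p.1 i)) (fun j => ccls h m N (p.2 j))
    (fun i => rcls_valid hh hN _) (fun j => ccls_valid hN _)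
    (fun i j hij => rcls_le (hp1 hij)) (fun i j hij => ccls_le (hp2 hij))
    (fun i j => hp3 i j)

/-! ### Large distance -/

/-- main rows -/
def mainR (h N r : ℕ) : Prop := 15 * N ≤ r ∧ r < 15 * N + h * N

/-- main columns -/
def mainC (h N c : ℕ) : Prop := 15 * N ≤ c ∧ c < 16 * N + h * N

/-- rows used by the triple `(U, s, s')` -/
def InRow (h N U s r : ℕ) : Prop :=
  (mainR h N r → (r - 15 * N) / h = U) ∧ (¬ mainR h N r → r % N = s)

/-- columns used by the triple `(U, s, s')` -/
def InCol (h N U s c : ℕ) : Prop :=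
  (mainC h N c → (c - 15 * N) / (h + 1) = U) ∧ (¬ mainC h N c → c % N = s)

lemma mul_add_div' {N a s : ℕ} (hs : s < N) : (a * N + s) / N = a := by
  have hN : 0 < N := by omega
  rw [Nat.add_comm, Nat.add_mul_div_right _ _ hN, Nat.div_eq_of_lt hs, Nat.zero_add]

lemma mul_add_mod' {N a s : ℕ} (hs : s < N) : (a * N + s) % N = s := by
  rw [Nat.add_comm, Nat.add_mul_mod_self_right, Nat.mod_eq_of_lt hs]

lemma lt_mul_of_lt {N a b s : ℕ} (hs : s < N) (hab : a < b) : a * N + s < b * N := by
  have : (a + 1) * N ≤ b * N := Nat.mul_le_mul_right _ hab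
  rw [Nat.add_mul] at this
  omega

section positions

variable {h m N : ℕ}

lemma rcls_Z {i s : ℕ} (hi : i < 14) (hs : s < N) : rcls h m N (i * N + s) = RC.Z i := by
  have := lt_mul_of_lt hs hi
  unfold rcls
  rw [if_pos this, mul_add_div' hs]

lemma rcls_W3 {s : ℕ} (hs : s < N) : rcls h m N (14 * N + s) = RC.W3 := by
  unfold rcls
  rw [if_neg (by omega), if_pos (by omega)]

lemma main_lt {i U : ℕ} (hi : 1 ≤ i) (hi' : i ≤ h) (hU : U < N) :
    U * h + (h - i) < h * N := by
  have : (U + 1) * h ≤ N * h := Nat.mul_le_mul_right _ hU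
  rw [Nat.add_mul] at this
  rw [Nat.mul_comm h N]
  omega

lemma rcls_M {i U : ℕ} (hi : 1 ≤ i) (hi' : i ≤ h) (hU : U < N) :
    rcls h m N (15 * N + (U * h + (h - i))) = RC.M i (U / m) := by
  have h1 := main_lt hi hi' hU
  have hlt : h - i < h := by omega
  unfold rcls
  rw [if_neg (by omega), if_neg (by omega), if_pos (by omega), Nat.add_sub_cancel_left,
    mul_add_mod' hlt, mul_add_div' hlt]
  congr 1
  omega

lemma rcls_W2 {s : ℕ} (hs : s < N) : rcls h m N (15 * N + h * N + s) = RC.W2 := by
  unfold rcls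
  rw [if_neg (by omega), if_neg (by omega), if_neg (by omega), if_pos (by omega)]

lemma rcls_W1 {s : ℕ} (hs : s < N) : rcls h m N (16 * N + h * N + s) = RC.W1 := by
  unfold rcls
  rw [if_neg (by omega), if_neg (by omega), if_neg (by omega), if_neg (by omega),
    if_pos (by omega)]

lemma rcls_R {t d s : ℕ} (hd : d < 2) (hs : s < N) :
    rcls h m N (17 * N + h * N + ((2 * t + d) * N + s)) = RC.R t d := by
  unfold rcls
  rw [if_neg (by omega), if_neg (by omega), if_neg (by omega), if_neg (by omega),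
    if_neg (by omega), Nat.add_sub_cancel_left, mul_add_div' hs]
  congr 1 <;> omega

lemma ccls_Z {i s : ℕ} (hi : i < 14) (hs : s < N) : ccls h m N (i * N + s) = CC.Z i := by
  have := lt_mul_of_lt hs hi
  unfold ccls
  rw [if_pos this, mul_add_div' hs]

lemma ccls_W {s : ℕ} (hs : s < N) : ccls h m N (14 * N + s) = CC.W := by
  unfold ccls
  rw [if_neg (by omega), if_pos (by omega)]

lemma mainc_lt {j U : ℕ} (hj : j ≤ h) (hU : U < N) :
    U * (h + 1) + j < N + h * N := by
  have : (U + 1) * (h + 1) ≤ N * (h + 1) := Nat.mul_le_mul_right _ hU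
  rw [Nat.add_mul, Nat.mul_add N h 1, Nat.mul_comm N h] at this
  omega

lemma ccls_M {j U : ℕ} (hj : j ≤ h) (hU : U < N) :
    ccls h m N (15 * N + (U * (h + 1) + j)) = CC.M j (U / m) := by
  have h1 := mainc_lt hj hU
  have hlt : j < h + 1 := by omega
  unfold ccls
  rw [if_neg (by omega), if_neg (by omega), if_pos (by omega), Nat.add_sub_cancel_left,
    mul_add_mod' hlt, mul_add_div' hlt]

lemma ccls_C {t d s : ℕ} (hd : d < 2) (hs : s < N) :
    ccls h m N (16 * N + h * N + ((2 * t + d) * N + s)) = CC.C t d := by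
  unfold ccls
  rw [if_neg (by omega), if_neg (by omega), if_neg (by omega), Nat.add_sub_cancel_left,
    mul_add_div' hs]
  congr 1 <;> omega

lemma inRow_M {i U s : ℕ} (hi : 1 ≤ i) (hi' : i ≤ h) (hU : U < N) :
    InRow h N U s (15 * N + (U * h + (h - i))) := by
  have h1 := main_lt hi hi' hU
  refine ⟨fun _ => ?_, fun hn => (hn ⟨by omega, by omega⟩).elim⟩
  rw [Nat.add_sub_cancel_left, mul_add_div' (by omega)]

lemma inCol_M {j U s : ℕ} (hj : j ≤ h) (hU : U < N) :
    InCol h N U s (15 * N + (U * (h + 1) + j)) := by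
  have h1 := mainc_lt hj hU
  refine ⟨fun _ => ?_, fun hn => (hn ⟨by omega, by omega⟩).elim⟩
  rw [Nat.add_sub_cancel_left, mul_add_div' (by omega)]

lemma inRow_lo {a U s : ℕ} (ha : a < 15) (hs : s < N) : InRow h N U s (a * N + s) := by
  have := lt_mul_of_lt hs ha
  refine ⟨fun hm => ?_, fun _ => mul_add_mod' hs⟩
  exact absurd hm.1 (by omega)

lemma inCol_lo {a U s : ℕ} (ha : a < 15) (hs : s < N) : InCol h N U s (a * N + s) := by
  have := lt_mul_of_lt hs ha
  refine ⟨fun hm => ?_, fun _ => mul_add_mod' hs⟩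
  exact absurd hm.1 (by omega)

lemma inRow_hi {a U s : ℕ} (ha : 15 + h ≤ a) (hs : s < N) : InRow h N U s (a * N + s) := by
  have h1 : (15 + h) * N ≤ a * N := Nat.mul_le_mul_right _ ha
  rw [Nat.add_mul] at h1
  refine ⟨fun hm => ?_, fun _ => mul_add_mod' hs⟩
  exact absurd hm.2 (by omega)

lemma inCol_hi {a U s : ℕ} (ha : 16 + h ≤ a) (hs : s < N) : InCol h N U s (a * N + s) := by
  have h1 : (16 + h) * N ≤ a * N := Nat.mul_le_mul_right _ ha
  rw [Nat.add_mul] at h1
  refine ⟨fun hm => ?_, fun _ => mul_add_mod' hs⟩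
  exact absurd hm.2 (by omega)

end positions

end Vale.Agent.P037
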